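import Vale.Agent.P329.Defs

/-! The clock with several hands.
One hand (`hand`): for `l ≥ 20`, `z : ZMod (l^2)` let `bit z = pat ((z.val / l) % 10)` with
`pat a = 1` iff `a ∈ {0,1,2,4,5}` (by `decide`: for all `T : Fin 10` and bits `b b'` there is `a : Fin 10`
with `pat a = b`, `pat (T - a) = b'`).  Since `(1+l)^r = 1 + r*l` in `ZMod (l^2)`, the elements
`z + (1+l)^r` and `z - (1+l)^r` have high digits `hi(z+1) + r` and `hi(z-1) - r` modulo `l`; their sum
`S` mod `l` does not depend on `r`.  Write `S` (if `S ≥ 9`, `a ∈ [0,10)`) or `S + l` (otherwise, `a ∈ [10,20)`)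
as `a + b` with `a, b < l` and the wanted pattern.
All hands: index type `Hd = (K × Option T) ⊕ (G × (T ⊕ T))`, pairwise coprime `l h ≥ 20`
(e.g. distinct primes `Nat.nth Nat.Prime (20 + enum h)` or Fermat numbers), `W = Π h, ZMod (l h ^ 2)`,
`v h = 1 + l h`, `n = ∏ l h`, `N = ∏ l h ^ 2`, `κ k h = 1` if `h = inl (k, _)` else `0`, `c g h = 1` if
`h = inr (g, _)` else `0`.  `u s t = ∑ k, bit (s (inl (k, some t)))`, `e s = ∑ k, bit (s (inl (k, none)))`,
`A s t = ∑ g, bit (s (inr (g, inl t)))`, `B s t = ∑ g, bit (s (inr (g, inr t)))`,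
`lab s t = u s t + if e s = 1 then A s t else B s t`.
`nail`, and the choice of `r` in a window: Chinese remainder theorem (`Nat.chineseRemainderOfFinset`).
`sweep`: prescribe jumps `τ h`: `τ (inl (k, none)) = 1`; `τ (inl (k, some t)) = t k t - u s t - (other side of s at t)`;
`τ (inr (g, side)) = t0 t - lab s t` on the side selected by `e s`, `0` on the other side. -/

namespace Vale.Agent.P329

/-- the pattern on the dial -/
def patHands (a : ℕ) : ZMod 2 := if a % 10 ∈ ({0, 1, 2, 4, 5} : Finset ℕ) then 1 else 0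

theorem patHands_congr {a b : ℕ} (h : a % 10 = b % 10) : patHands a = patHands b := by
  unfold patHands
  rw [h]

theorem patHands_key : ∀ T < 10, ∀ b b' : ZMod 2, ∃ a < 10,
    patHands a = b ∧ patHands (T + 10 - a) = b' := by
  decide

theorem patHands_split {l : ℕ} (hl : 20 ≤ l) (S : ℕ) (b b' : ZMod 2) :
    ∃ x < l, ∃ y < l, x + y ≡ S [MOD l] ∧ patHands x = b ∧ patHands y = b' := by
  have hS : S % l < l := Nat.mod_lt _ (by omega)
  by_cases h : 9 ≤ S % l
  · obtain ⟨a, ha, h1, h2⟩ := patHands_key (S % l % 10) (Nat.mod_lt _ (by norm_num)) b b'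
    refine ⟨a, by omega, S % l - a, by omega, ?_, h1, (patHands_congr (by omega)).trans h2⟩
    rw [Nat.add_sub_cancel' (by omega)]
    exact Nat.mod_modEq S l
  · obtain ⟨a, ha, h1, h2⟩ := patHands_key ((S % l + l) % 10) (Nat.mod_lt _ (by norm_num)) b b'
    refine ⟨a + 10, by omega, S % l + l - (a + 10), by omega, ?_,
      (patHands_congr (by omega)).trans h1, (patHands_congr (by omega)).trans h2⟩
    rw [Nat.add_sub_cancel' (by omega)]
    unfold Nat.ModEq
    rw [Nat.add_mod_right, Nat.mod_mod]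

theorem hands_sq (l : ℕ) : (l : ZMod (l ^ 2)) * l = 0 := by
  rw [← Nat.cast_mul, ← sq, ZMod.natCast_self]

theorem hands_pow (l r : ℕ) : (1 + (l : ZMod (l ^ 2))) ^ r = 1 + r * l := by
  induction r with
  | zero => simp
  | succ r ih =>
    rw [pow_succ (1 + (l : ZMod (l ^ 2))) r, ih]
    push_cast
    linear_combination (r : ZMod (l ^ 2)) * hands_sq l

theorem hands_congr {l x y : ℕ} (h : x ≡ y [MOD l]) :
    (x : ZMod (l ^ 2)) * l = (y : ZMod (l ^ 2)) * l := by
  rw [← Nat.cast_mul, ← Nat.cast_mul, ZMod.natCast_eq_natCast_iff, sq]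
  exact h.mul_right' l

theorem hands_hi {l c a : ℕ} (hc : c < l) (ha : a < l) :
    ((c : ZMod (l ^ 2)) + (a : ZMod (l ^ 2)) * l).val / l = a := by
  rw [← Nat.cast_mul, ← Nat.cast_add, ZMod.val_natCast_of_lt (by nlinarith),
    Nat.add_mul_div_right _ _ (by omega), Nat.div_eq_of_lt hc, zero_add]

theorem hands_dec {l : ℕ} (hl : 0 < l) (z : ZMod (l ^ 2)) :
    ∃ c < l, ∃ p : ℕ, z = (c : ZMod (l ^ 2)) + (p : ZMod (l ^ 2)) * (l : ZMod (l ^ 2)) := by
  have : NeZero (l ^ 2) := ⟨by positivity⟩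
  refine ⟨z.val % l, Nat.mod_lt _ hl, z.val / l, ?_⟩
  rw [← Nat.cast_mul, ← Nat.cast_add, Nat.mod_add_div', ZMod.natCast_zmod_val]

theorem hand (l : ℕ) (hl : 20 ≤ l) : ∃ bit : ZMod (l ^ 2) → ZMod 2,
    ∀ (z : ZMod (l ^ 2)) (τ : ZMod 2), ∃ ρ : ℕ, ∀ r : ℕ, r ≡ ρ [MOD l] →
      bit (z + (1 + (l : ZMod (l ^ 2))) ^ r) = bit z + τ ∧
      bit (z - (1 + (l : ZMod (l ^ 2))) ^ r) = bit z := by
  refine ⟨fun z => patHands (z.val / l), fun z τ => ?_⟩
  obtain ⟨c, hc, p, hp⟩ := hands_dec (by omega) (z + 1)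
  obtain ⟨d, hd, q, hq⟩ := hands_dec (by omega) (z - 1)
  obtain ⟨x, hx, y, hy, hxy, h1, h2⟩ := patHands_split hl (p + q) (patHands (z.val / l) + τ)
    (patHands (z.val / l))
  obtain ⟨m, rfl⟩ : ∃ m, l = m + 1 := ⟨l - 1, by omega⟩
  refine ⟨x + m * p, fun r hr => ?_⟩
  have e1 := hands_congr hr
  have e2 := hands_congr hxy
  have e3 := hands_sq (m + 1)
  have e4 : z + (1 + ((m + 1 : ℕ) : ZMod ((m + 1) ^ 2))) ^ r
      = (c : ZMod ((m + 1) ^ 2)) + (x : ZMod ((m + 1) ^ 2)) * ((m + 1 : ℕ) : ZMod ((m + 1) ^ 2)) := by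
    rw [hands_pow]
    push_cast at e1 e2 e3 hp hq ⊢
    linear_combination hp + e1 + (p : ZMod ((m + 1) ^ 2)) * e3
  have e5 : z - (1 + ((m + 1 : ℕ) : ZMod ((m + 1) ^ 2))) ^ r
      = (d : ZMod ((m + 1) ^ 2)) + (y : ZMod ((m + 1) ^ 2)) * ((m + 1 : ℕ) : ZMod ((m + 1) ^ 2)) := by
    rw [hands_pow]
    push_cast at e1 e2 e3 hp hq ⊢
    linear_combination hq - e1 - e2 - (p : ZMod ((m + 1) ^ 2)) * e3
  simp only [e4, e5, hands_hi hc hx, hands_hi hd hy, h1, h2, and_self]

theorem hands_crt {ι : Type} [Fintype ι] (m : ι → ℕ) (hm : ∀ i, 0 < m i)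
    (hc : Pairwise fun i j => Nat.Coprime (m i) (m j)) (ρ : ι → ℕ) (r0 : ℕ) :
    ∃ r, r0 ≤ r ∧ r < r0 + ∏ i, m i ∧ ∀ i, r ≡ ρ i [MOD m i] := by
  obtain ⟨x, hx⟩ := Nat.chineseRemainderOfFinset ρ m Finset.univ (fun i _ => (hm i).ne')
    (fun i _ j _ hij => hc hij)
  have hn : 0 < ∏ i, m i := Finset.prod_pos fun i _ => hm i
  obtain ⟨n, hn'⟩ : ∃ n, ∏ i, m i = n + 1 := ⟨_, (Nat.succ_pred_eq_of_pos hn).symm⟩
  refine ⟨r0 + (x + n * r0) % (n + 1), Nat.le_add_right _ _,
    by rw [hn']; exact Nat.add_lt_add_left (Nat.mod_lt _ (Nat.succ_pos n)) _, fun i => ?_⟩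
  have h1 : r0 + (x + n * r0) % (n + 1) ≡ x [MOD n + 1] := by
    refine ((Nat.mod_modEq _ _).add_left r0).trans ?_
    have : r0 + (x + n * r0) = x + (n + 1) * r0 := by ring
    rw [this]
    unfold Nat.ModEq
    rw [Nat.add_mul_mod_self_left]
  exact (h1.of_dvd (hn' ▸ Finset.dvd_prod_of_mem m (Finset.mem_univ i))).trans
    (hx i (Finset.mem_univ i))

theorem hands_jump {R : Type} [CommRing R] {bit : R → ZMod 2} {z x : R} {τ : ZMod 2}
    (h : bit (z + x) = bit z + τ ∧ bit (z - x) = bit z) (p q : Prop) [Decidable p] [Decidable q] :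
    bit (z + x * ((if p then 1 else 0) - if q then 1 else 0)) =
      bit z + if p ∧ ¬ q then τ else 0 := by
  by_cases hp : p <;> by_cases hq : q <;> simp [hp, hq, h.1, ← sub_eq_add_neg, h.2]

theorem hands_sum {K : Type} [Fintype K] [DecidableEq K] (f τ : K → ZMod 2) (k k' : K) :
    ∑ j, (f j + if j = k' ∧ ¬ j = k then τ j else 0) = ∑ j, f j + if k' = k then 0 else τ k' := by
  rw [Finset.sum_add_distrib]
  congr 1
  rw [Finset.sum_eq_single k']
  · by_cases h : k' = k <;> simp [h]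
  · intro j _ hj
    simp [hj]
  · simp

theorem hands_flip (e : ZMod 2) : e + 1 = 1 ↔ ¬ e = 1 := by
  revert e
  decide

theorem exists_clock (K G T : Type) [Finite K] [Finite G] [Finite T] :
    Nonempty (Clock K G T) := by
  classical
  have := Fintype.ofFinite K
  have := Fintype.ofFinite G
  have := Fintype.ofFinite T
  obtain ⟨en, hen⟩ := exists_injective_nat ((K × Option T) ⊕ (G × (T ⊕ T)))
  let l : (K × Option T) ⊕ (G × (T ⊕ T)) → ℕ := fun h => Nat.fermatNumber (en h + 3)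
  have hl : ∀ h, 20 ≤ l h := fun h =>
    le_trans (by decide) (Nat.fermatNumber_mono (Nat.le_add_left 3 (en h)))
  have hl0 : ∀ h, 0 < l h := fun h => lt_of_lt_of_le (by norm_num) (hl h)
  have hc : Pairwise fun i j => Nat.Coprime (l i) (l j) := fun i j hij =>
    Nat.coprime_fermatNumber_fermatNumber fun h => hij (hen (by omega))
  have hz : ∀ h, NeZero (l h ^ 2) := fun h => ⟨(pow_pos (hl0 h) 2).ne'⟩
  choose bit hbit using fun h => hand (l h) (hl h)
  let W : Type := (h : (K × Option T) ⊕ (G × (T ⊕ T))) → ZMod (l h ^ 2)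
  let U : W → Option T → ZMod 2 := fun s o => ∑ k, bit (.inl (k, o)) (s (.inl (k, o)))
  let A : W → T ⊕ T → ZMod 2 := fun s o => ∑ g, bit (.inr (g, o)) (s (.inr (g, o)))
  let κ : K → W := fun k h => match h with
    | .inl x => if x.1 = k then 1 else 0
    | .inr _ => 0
  let c : G → W := fun g h => match h with
    | .inl _ => 0
    | .inr x => if x.1 = g then 1 else 0
  let v : W := fun h => 1 + (l h : ZMod (l h ^ 2))
  let lab : W → V T := fun s t =>
    U s (some t) + if U s none = 1 then A s (.inl t) else A s (.inr t)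
  refine ⟨{
    W := W
    v := v
    n := ∏ h, l h
    N := ∏ h, l h ^ 2
    κ := κ
    c := c
    lab := lab
    N_pos := Finset.prod_pos fun h _ => pow_pos (hl0 h) 2
    nail := fun w => ?_
    sweep := fun s t0 t r0 => ?_ }⟩
  · obtain ⟨g, -, h1, h2⟩ := hands_crt (fun h => l h ^ 2) (fun h => pow_pos (hl0 h) 2)
      (fun i j hij => Nat.Coprime.pow 2 2 (hc hij)) (fun h => (w h).val) 0
    refine ⟨g, by simpa using h1, fun i hi => funext fun h => ?_⟩
    have h3 : i ≡ g [MOD ∏ h, l h ^ 2] := hi ▸ (Nat.mod_modEq _ _).symm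
    have h4 := (h3.of_dvd (Finset.dvd_prod_of_mem (fun h => l h ^ 2) (Finset.mem_univ h))).trans
      (h2 h)
    rw [Pi.natCast_apply, (ZMod.natCast_eq_natCast_iff _ _ _).2 h4, ZMod.natCast_zmod_val]
  · let τ : (K × Option T) ⊕ (G × (T ⊕ T)) → ZMod 2 := fun h => match h with
      | .inl (_, none) => 1
      | .inl (k, some x) =>
          t k x - U s (some x) - if U s none = 1 then A s (.inr x) else A s (.inl x)
      | .inr (_, .inl x) => if U s none = 1 then t0 x - lab s x else 0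
      | .inr (_, .inr x) => if U s none = 1 then 0 else t0 x - lab s x
    choose ρ hρ using fun h => hbit h (s h) (τ h)
    obtain ⟨r, h1, h2, h3⟩ := hands_crt l hl0 hc ρ r0
    refine ⟨r, h1, h2, fun k g k' g' => ?_⟩
    have hU : ∀ o, U (s + v ^ r * (κ k' - κ k + c g' - c g)) o
        = U s o + if k' = k then 0 else τ (.inl (k', o)) := by
      intro o
      rw [← hands_sum _ (fun j => τ (.inl (j, o)))]
      refine Finset.sum_congr rfl fun j _ => ?_
      rw [← hands_jump (hρ _ r (h3 _))]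
      congr 1
      change s _ + v _ ^ r * (κ k' _ - κ k _ + c g' _ - c g _) = _
      simp only [κ, c, v, add_zero, sub_zero]
    have hA : ∀ o, A (s + v ^ r * (κ k' - κ k + c g' - c g)) o
        = A s o + if g' = g then 0 else τ (.inr (g', o)) := by
      intro o
      rw [← hands_sum _ (fun j => τ (.inr (j, o)))]
      refine Finset.sum_congr rfl fun j _ => ?_
      rw [← hands_jump (hρ _ r (h3 _))]
      congr 1
      change s _ + v _ ^ r * (κ k' _ - κ k _ + c g' _ - c g _) = _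
      simp only [κ, c, v, zero_add, sub_zero]
    refine ⟨fun hk hg => funext fun x => ?_, fun hk => funext fun x => ?_⟩
    · simp only [lab, hU, hA, if_pos hk, if_neg hg, add_zero, τ]
      split_ifs <;> ring
    · simp only [lab, hU, hA, hk, if_false, τ, hands_flip]
      split_ifs <;> ring

/-- add a hand that shows an element of the finite nonempty type `K'` -/
theorem Clock.code {K G T : Type} (C : Clock K G T) (K' : Type) [Finite K'] [Nonempty K'] :
    ∃ (N' : ℕ) (code : ℕ → K'), 0 < N' ∧ ∀ (k : K') (w : C.W), ∃ g < N', ∀ i : ℕ, i % N' = g →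
      code i = k ∧ (i : C.W) = w := by
  have hm : 0 < Nat.card K' := Nat.card_pos
  refine ⟨C.N * Nat.card K', fun i => (Finite.equivFin K').symm
    ⟨i / C.N % Nat.card K', Nat.mod_lt _ hm⟩, Nat.mul_pos C.N_pos hm, fun k w => ?_⟩
  obtain ⟨g, hg, h⟩ := C.nail w
  have hj := (Finite.equivFin K' k).2
  refine ⟨g + C.N * (Finite.equivFin K' k), by nlinarith, fun i hi => ⟨?_, h i ?_⟩⟩
  · rw [Equiv.symm_apply_eq]
    apply Fin.ext
    change i / C.N % Nat.card K' = _
    rw [← Nat.mod_mul_right_div_self, hi, Nat.add_mul_div_left _ _ C.N_pos, Nat.div_eq_of_lt hg,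
      zero_add]
  · rw [← Nat.mod_mul_right_mod i C.N (Nat.card K'), hi, Nat.add_mul_mod_self_left,
      Nat.mod_eq_of_lt hg]

end Vale.Agent.P329
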