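import Vale.Agent.P329.ThinL

/-! Basic facts on rounds.  Everything follows from `μ.len`, `μ.loc`, `List.drop_append`, `omega`.
`F1` of `Rd t`: `Rd t u ↔ Cat (len ≥ t) (window) u ∧ ¬ Cat (len ≥ t) (Cat window nonempty) u` where
`window v := Mk v ∧ v.length = R` is finite (`F1.short`) and length conditions are `F1.take`. -/

namespace Vale.Agent.P329
namespace Marker

variable {α : Type} {s : ℕ} (μ : Marker α s)

theorem mk_drop_append (u r : List α) (i : ℕ) (h : i + μ.R ≤ u.length) :
    μ.Mk ((u ++ r).drop i) ↔ μ.Mk (u.drop i) := by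
  rw [List.drop_append_of_le_length (by omega)]
  exact μ.loc _ _ (by rw [List.length_drop]; omega)

theorem mk_drop_len {u : List α} {i : ℕ} (h : μ.Mk (u.drop i)) : i + μ.R ≤ u.length := by
  have h1 := μ.len _ h
  have h2 := μ.R_pos
  rw [List.length_drop] at h1
  omega

theorem mk_drop_append_of {u : List α} (r : List α) {i : ℕ} (h : μ.Mk (u.drop i)) :
    μ.Mk ((u ++ r).drop i) := by
  exact (μ.mk_drop_append u r i (μ.mk_drop_len h)).2 h

theorem mk_take_drop (u : List α) (i B : ℕ) (h : i + μ.R ≤ B) :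
    μ.Mk ((u.take B).drop i) ↔ μ.Mk (u.drop i) := by
  by_cases hB : B ≤ u.length
  · rw [← μ.mk_drop_append (u.take B) (u.drop B) i (by rw [List.length_take]; omega),
      List.take_append_drop]
  · rw [List.take_of_length_le (by omega)]

theorem mk_append_drop (a b : List α) (i : ℕ) :
    μ.Mk ((a ++ b).drop (a.length + i)) ↔ μ.Mk (b.drop i) := by
  rw [← List.drop_drop, List.drop_left]

theorem sep' {u : List α} {i j : ℕ} (hi : μ.Mk (u.drop i)) (hj : μ.Mk (u.drop j)) (h : i < j) :
    i + s ≤ j := by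
  by_contra hc
  refine μ.sep _ (j - i) hi (by omega) (by omega) ?_
  rwa [List.drop_drop, Nat.add_sub_cancel' h.le]

theorem round_first {t i : ℕ} {u : List α} (hu : μ.Rd t u) (ht : t ≤ i)
    (hi : μ.Mk (u.drop i)) : i + μ.R = u.length :=
  le_antisymm (μ.mk_drop_len hi) (not_lt.1 fun h => hu.2.2 i ht h hi)

theorem round_len_eq {t l : ℕ} (hl : l ≤ t) {u u' r r' : List α} (hu : μ.Rd t u)
    (hu' : μ.Rd t u') (e : u.drop l ++ r = u'.drop l ++ r') (h : u.length ≤ u'.length) :
    u.length = u'.length := by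
  have k1 := hu.1
  have h1 : μ.Mk ((u.drop l).drop (u.length - μ.R - l)) := by
    rw [List.drop_drop, show l + (u.length - μ.R - l) = u.length - μ.R by omega]
    exact hu.2.1
  have h2 := μ.mk_drop_append_of r h1
  rw [e, μ.mk_drop_append _ _ _ (by rw [List.length_drop]; omega), List.drop_drop] at h2
  have := μ.round_first hu' (by omega) h2
  omega

theorem round_tail {t l : ℕ} (hl : l ≤ t) {u u' r r' : List α} (hu : μ.Rd t u) (hu' : μ.Rd t u')
    (e : u.drop l ++ r = u'.drop l ++ r') : u.drop l = u'.drop l := by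
  have h : u.length = u'.length := (le_total u.length u'.length).elim
    (μ.round_len_eq hl hu hu' e) fun h => (μ.round_len_eq hl hu' hu e.symm h).symm
  exact List.append_inj_left e (by rw [List.length_drop, List.length_drop, h])

theorem rd_code (t : ℕ) : PCode (μ.Rd t) := by
  refine ⟨fun h => ?_, fun u u' r r' hu hu' e => ?_⟩
  · have h1 := h.1
    have h2 := μ.R_pos
    rw [List.length_nil] at h1
    omega
  · exact μ.round_tail (Nat.zero_le t) hu hu' e

/-- the last mark of a round is the first one at or after the threshold -/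
theorem rd_first {t i : ℕ} {u : List α} (hu : μ.Rd t u) (ht : t ≤ i) (hi : μ.Mk (u.drop i)) :
    i + μ.R = u.length := by
  exact μ.round_first hu ht hi

theorem rd_append {t t' : ℕ} {a b : List α} (hb : μ.Rd t' b) (h1 : a.length + t' ≤ t)
    (h2 : t + μ.R ≤ a.length + b.length) : μ.Rd t (a ++ b) := by
  obtain ⟨k1, k2, k3⟩ := hb
  refine ⟨by rw [List.length_append]; omega, ?_, fun i hi hi' => ?_⟩
  · rw [List.length_append, show a.length + b.length - μ.R = a.length + (b.length - μ.R) by omega,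
      mk_append_drop]
    exact k2
  · rw [List.length_append] at hi'
    rw [show i = a.length + (i - a.length) by omega, mk_append_drop]
    exact k3 _ (by omega) (by omega)

/-- cut a round at `d`; no mark may lie in `[d + t', t)` -/
theorem rd_drop {t t' d : ℕ} {u : List α} (hu : μ.Rd t u) (h1 : d + t' + μ.R ≤ u.length)
    (h2 : ∀ i, d + t' ≤ i → i < t → ¬ μ.Mk (u.drop i)) : μ.Rd t' (u.drop d) := by
  obtain ⟨k1, k2, k3⟩ := hu
  refine ⟨by rw [List.length_drop]; omega, ?_, fun i hi hi' => ?_⟩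
  · rw [List.length_drop, List.drop_drop, show d + (u.length - d - μ.R) = u.length - μ.R by omega]
    exact k2
  · rw [List.length_drop] at hi'
    rw [List.drop_drop]
    by_cases h : d + i < t
    · exact h2 _ (by omega) h
    · exact k3 _ (by omega) (by omega)

/-- stop after the first mark of `b` -/
theorem rd_take {t j : ℕ} {a b : List α} (hj : μ.Mk (b.drop j)) (hb : ∀ i < j, ¬ μ.Mk (b.drop i))
    (h1 : a.length ≤ t) (h2 : t ≤ a.length + j) : μ.Rd t (a ++ b.take (j + μ.R)) := by
  have h3 := μ.mk_drop_len hj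
  have h4 : (a ++ b.take (j + μ.R)).length = a.length + (j + μ.R) := by
    rw [List.length_append, List.length_take, min_eq_left h3]
  refine ⟨by omega, ?_, fun i hi hi' => ?_⟩
  · rw [h4, show a.length + (j + μ.R) - μ.R = a.length + j by omega, mk_append_drop,
      μ.mk_take_drop b j _ le_rfl]
    exact hj
  · rw [show i = a.length + (i - a.length) by omega, mk_append_drop,
      μ.mk_take_drop b _ _ (by omega)]
    exact hb _ (by omega)

theorem rd_dec (t : ℕ) (w : List α) :
    ∃ (us : List (List α)) (r : List α), (∀ u ∈ us, μ.Rd t u) ∧ μ.Inc t r ∧ w = us.flatten ++ r := by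
  classical
  induction hn : w.length using Nat.strong_induction_on generalizing w with
  | _ n ih =>
    by_cases h : ∃ i, t ≤ i ∧ μ.Mk (w.drop i)
    · obtain ⟨h1, h2⟩ := Nat.find_spec h
      have h3 := μ.mk_drop_len h2
      have h4 := μ.R_pos
      obtain ⟨us, r, hu, hr, e⟩ := ih _ (by rw [List.length_drop]; omega)
        (w.drop (Nat.find h + μ.R)) rfl
      refine ⟨w.take (Nat.find h + μ.R) :: us, r, fun u hu' => ?_, hr, ?_⟩
      · rcases List.mem_cons.1 hu' with rfl | hu'
        · have h5 : (w.take (Nat.find h + μ.R)).length = Nat.find h + μ.R := by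
            rw [List.length_take, min_eq_left h3]
          refine ⟨by omega, ?_, fun i hi hi' => ?_⟩
          · rw [h5, Nat.add_sub_cancel, μ.mk_take_drop w _ _ le_rfl]
            exact h2
          · rw [μ.mk_take_drop w _ _ (by omega)]
            exact fun hm => Nat.find_min h (by omega) ⟨hi, hm⟩
        · exact hu u hu'
      · rw [List.flatten_cons, List.append_assoc, ← e, List.take_append_drop]
    · exact ⟨[], w, by simp, fun i hi hm => h ⟨i, hi, hm⟩, by simp⟩

theorem rd_thin {t t' : ℕ} (h : t ≤ t') :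
    ∀ u, μ.Rd t u → ∀ i, t' ≤ i → i + μ.R < u.length → ¬ μ.Mk (u.drop i) := by
  exact fun u hu i hi => hu.2.2 i (h.trans hi)

theorem thin_rd (t : ℕ) : Thin (μ.Rd t) := by
  exact (μ.per t).mono fun _ hw => hw.2.2

theorem thin_inc (t : ℕ) : Thin (μ.Inc t) := by
  exact (μ.per t).mono fun _ hw i hi _ => hw i hi

theorem round_len [Finite α] (t : ℕ) : F1 (fun u : List α => t ≤ u.length) := by
  refine F1.take t fun u u' e h => ?_
  have := congrArg List.length e
  rw [List.length_take, List.length_take] at this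
  omega

theorem round_cat (t : ℕ) (q : ℕ → Prop) (u : List α) :
    Cat (fun a => t ≤ a.length) (fun v => μ.Mk v ∧ q v.length) u ↔
      ∃ i, t ≤ i ∧ μ.Mk (u.drop i) ∧ q (u.length - i) := by
  constructor
  · rintro ⟨a, b, ha, hb, rfl⟩
    exact ⟨a.length, ha, by simpa using hb⟩
  · rintro ⟨i, hi, hm, hq⟩
    have := μ.mk_drop_len hm
    exact ⟨u.take i, u.drop i, by simp only [List.length_take]; omega,
      ⟨hm, by rwa [List.length_drop]⟩, (List.take_append_drop i u).symm⟩

theorem f1_mk [Finite α] (i : ℕ) : F1 (fun u : List α => μ.Mk (u.drop i)) := by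
  refine F1.take (i + μ.R) fun u u' e h => ?_
  rwa [← μ.mk_take_drop u' i _ le_rfl, ← e, μ.mk_take_drop u i _ le_rfl]

theorem f1_rd [Finite α] (t : ℕ) : F1 (μ.Rd t) := by
  have h0 : F1 μ.Mk := μ.f1_mk 0
  have h1 := (round_len (α := α) t).cat (h0.and (round_len (μ.R + 1)).not)
  have h2 := (round_len (α := α) t).cat (h0.and (round_len (μ.R + 1)))
  refine (h1.and h2.not).congr fun u => ?_
  rw [μ.round_cat t (fun n => ¬ μ.R + 1 ≤ n), μ.round_cat t (fun n => μ.R + 1 ≤ n)]
  constructor
  · rintro ⟨⟨i, hi, hm, hl⟩, h⟩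
    have := μ.mk_drop_len hm
    refine ⟨by omega, ?_, fun j hj hj' hm' => h ⟨j, hj, hm', by omega⟩⟩
    rwa [show u.length - μ.R = i by omega]
  · rintro ⟨k1, k2, k3⟩
    exact ⟨⟨_, by omega, k2, by omega⟩, fun ⟨j, hj, hm, hl⟩ => k3 j hj (by omega) hm⟩

theorem f1_inc [Finite α] (t : ℕ) : F1 (μ.Inc t) := by
  have h0 : F1 μ.Mk := μ.f1_mk 0
  refine ((round_len (α := α) t).cat (h0.and (F1.const True))).not.congr fun u => ?_
  rw [μ.round_cat t (fun _ => True)]
  exact ⟨fun h i hi hm => h ⟨i, hi, hm, trivial⟩, fun h ⟨i, hi, hm, _⟩ => h i hi hm⟩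

theorem f1_two [Finite α] (j : ℕ) : F1 (μ.Two j) := by
  refine ((μ.f1_mk j).and ((F1.exSet (Set.finite_lt_nat j) fun i _ => μ.f1_mk i).not.and
    (μ.f1_rd (j + 1)))).congr fun u => ?_
  simp only [Two, Set.mem_ofPred_eq, not_exists, not_and]

theorem f1_good [Finite α] (c1 c2 c3 Λ : ℕ) : F1 (μ.Good c1 c2 c3 Λ) := by
  refine ((F1.exSet (Set.finite_lt_nat c1) fun i _ => μ.f1_mk i).or
    ((F1.exSet (Set.finite_lt_nat c3) fun i _ => μ.f1_mk i).not.or
      (F1.exSet (Set.finite_lt_nat c2) fun i _ =>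
        (μ.f1_mk i).and (round_len (i + Λ + μ.R))))).congr fun u => ?_
  simp only [Good, Set.mem_ofPred_eq, not_exists, not_and]

/-- bad rounds are short -/
theorem bad_len {c1 c2 c3 Λ : ℕ} {u : List α} (hu : μ.Rd c2 u) (hb : ¬ μ.Good c1 c2 c3 Λ u) :
    u.length ≤ c2 + c3 + Λ + μ.R := by
  simp only [Good, not_or, not_forall, not_not, not_exists, not_and] at hb
  obtain ⟨-, ⟨f, hf, hm⟩, h3⟩ := hb
  by_cases h : f < c2
  · have := h3 f h hm
    omega
  · have := μ.rd_first hu (not_lt.1 h) hm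
    omega

/-- the first mark of a bad round lies in `[c1, c3)` -/
theorem bad_first {c1 c2 c3 Λ : ℕ} {u : List α} (hb : ¬ μ.Good c1 c2 c3 Λ u) :
    ∃ f, c1 ≤ f ∧ f < c3 ∧ μ.Mk (u.drop f) ∧ ∀ i < f, ¬ μ.Mk (u.drop i) := by
  classical
  simp only [Good, not_or, not_forall, not_not, not_exists, not_and] at hb
  obtain ⟨h1, ⟨f, hf, hm⟩, -⟩ := hb
  have h : ∃ f, μ.Mk (u.drop f) := ⟨f, hm⟩
  exact ⟨Nat.find h, not_lt.1 fun hc => h1 _ hc (Nat.find_spec h),
    (Nat.find_min' h hm).trans_lt hf, Nat.find_spec h, fun i hi => Nat.find_min h hi⟩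

/-- the part of a round after position `l ≤ t` determines where the round ends -/
theorem rd_tail {t l : ℕ} (hl : l ≤ t) {u u' r r' : List α} (hu : μ.Rd t u) (hu' : μ.Rd t u')
    (e : u.drop l ++ r = u'.drop l ++ r') : u.drop l = u'.drop l := by
  exact μ.round_tail hl hu hu' e

end Marker
end Vale.Agent.P329
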