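import Vale.Agent.P329.Chain
import Vale.Agent.P329.Round
import Vale.Agent.P329.Hands

/-! Runs of bad rounds have height one (exact number-on-forehead trick).
Plan.  `C : Clock Unit M1 (X ⊕ X)`, messages `Msg = V X × M1 × C.W`, `idx : Msg ≃ Fin Q`,
`E = Wd + 1`, `L = Q * E`, `lam = C.n * L`.  Region `t < C.n` of `u` is `reg t u = (u.drop (t*L)).take L`,
`syn k u = ∑ t ∈ range k, C.v ^ t * C.c (val ψ (reg t u))`, `xl s = C.lab s ∘ inl`, `yl s = C.lab s ∘ inr`,
`π u ξ = yl (syn n u) + push (act u) (ξ - xl (syn n u))`.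
`Off ξ a := ∃ t < n, a.length = t*L + idx (ξ, val ψ (a.take (t*L)), syn t a) * E`,
`Acc η b := b.length ≤ B ∧ b ≠ [] ∧ ∀ ξ a u r r', Off ξ a → Bad u → a ++ b ++ r = u ++ r' → u = a ++ b ∧ π u ξ = η`.
`hS` of `F1.chain` is immediate (the first unit of the nonempty product).  `hC`: take `t` from
`C.sweep (syn n u) (Sum.elim ξ (π u ξ)) _ 0`, cut `u` at `t*L + idx(..)*E < lam`.  For another world `a', u'`:
the first mark of `u'` is at `a'.length + j` where `j = f - a.length` (`mk_drop_append`, `mk_append_drop`); both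
lengths are multiples of `E` and both first marks lie in `[lam, lam+Wd)`, so the lengths agree, so `t` and the
message agree; `rd_tail` gives `u' = a' ++ b`; all regions after `t` agree; `syn n u' = syn n u + v^t (c g' - c g)`;
if `g' = g` then `val (take lam)` agree (product of regions) and `act u' = act u`; otherwise the label is `(ξ, π u ξ)`.
Finally `RunL Bad act x y w ↔ ∃ η0, RunL Bad π 0 η0 w ∧ RunL Bad π (single x 1) (η0 + single y 1) w`
by `PCode.unique`, `run π us ξ = run π us 0 + push (run act us) ξ`, `push_single`, `single_inj`. -/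

namespace Vale.Agent.P329

section aux

variable {Γ W : Type} [CommRing W]

/-- The region number `t`. -/
def brReg (L t : ℕ) (u : List Γ) : List Γ := (u.drop (t * L)).take L

/-- The syndrome of the first `k` regions. -/
def brSyn (v : W) (c : List Γ → W) (L k : ℕ) (u : List Γ) : W :=
  ∑ t ∈ Finset.range k, v ^ t * c (brReg L t u)

theorem br_reg_take {L t k : ℕ} (h : t < k) (u : List Γ) :
    brReg L t (u.take (k * L)) = brReg L t u := by
  have h1 : (t + 1) * L ≤ k * L := Nat.mul_le_mul_right L h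
  rw [Nat.add_mul, Nat.one_mul] at h1
  rw [brReg, brReg, List.drop_take, List.take_take, Nat.min_eq_left (by omega)]

theorem br_syn_take (v : W) (c : List Γ → W) {L k : ℕ} {u u' : List Γ}
    (h : u.take (k * L) = u'.take (k * L)) : brSyn v c L k u = brSyn v c L k u' :=
  Finset.sum_congr rfl fun t ht => by
    rw [← br_reg_take (Finset.mem_range.1 ht) u, h, br_reg_take (Finset.mem_range.1 ht)]

theorem br_drop {d e : ℕ} (h : d ≤ e) {u u' : List Γ} (hu : u.drop d = u'.drop d) :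
    u.drop e = u'.drop e := by
  obtain ⟨k, rfl⟩ := Nat.exists_eq_add_of_le h
  rw [← List.drop_drop, ← List.drop_drop, hu]

theorem br_syn_split (v : W) (c : List Γ → W) {L t n : ℕ} (h : t < n) {u u' : List Γ}
    (h1 : u.drop ((t + 1) * L) = u'.drop ((t + 1) * L))
    (h2 : brSyn v c L t u = brSyn v c L t u') :
    brSyn v c L n u' = brSyn v c L n u + v ^ t * (c (brReg L t u') - c (brReg L t u)) := by
  obtain ⟨k, rfl⟩ := Nat.exists_eq_add_of_le (Nat.succ_le_of_lt h)
  unfold brSyn at h2 ⊢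
  rw [Finset.sum_range_add, Finset.sum_range_add, Finset.sum_range_succ, Finset.sum_range_succ, h2]
  have h3 : ∑ x ∈ Finset.range k, v ^ (t.succ + x) * c (brReg L (t.succ + x) u') =
      ∑ x ∈ Finset.range k, v ^ (t.succ + x) * c (brReg L (t.succ + x) u) :=
    Finset.sum_congr rfl fun x _ => by
      rw [brReg, brReg, br_drop (Nat.mul_le_mul_right L (Nat.le_add_right _ x)) h1]
  rw [h3]
  ring

theorem br_take {L t n : ℕ} (h : t < n) (u : List Γ) : u.take (n * L) =
    u.take (t * L) ++ brReg L t u ++ (u.drop ((t + 1) * L)).take ((n - (t + 1)) * L) := by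
  obtain ⟨k, rfl⟩ := Nat.exists_eq_add_of_le (Nat.succ_le_of_lt h)
  rw [Nat.add_sub_cancel_left, Nat.add_mul, List.take_add, Nat.succ_mul, List.take_add, brReg]

theorem br_first {s : ℕ} (μ : Marker Γ s) {a b r u r' : List Γ} {j f : ℕ}
    (e : a ++ b ++ r = u ++ r') (h1 : μ.Mk (b.drop j)) (h2 : ∀ i < j, ¬ μ.Mk (b.drop i))
    (h3 : μ.Mk (u.drop f)) (h4 : ∀ i < f, ¬ μ.Mk (u.drop i)) (h5 : a.length ≤ f) :
    f = a.length + j := by
  have l1 := μ.mk_drop_len h1
  have l3 := μ.mk_drop_len h3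
  rcases lt_trichotomy f (a.length + j) with h | h | h
  · obtain ⟨i, rfl⟩ := Nat.exists_eq_add_of_le h5
    have h6 := μ.mk_drop_append_of r' h3
    rw [← e, List.append_assoc, μ.mk_append_drop, μ.mk_drop_append _ _ _ (by omega)] at h6
    exact absurd h6 (h2 i (by omega))
  · exact h
  · have h6 := μ.mk_drop_append_of r h1
    rw [← μ.mk_append_drop a, ← List.append_assoc, e, μ.mk_drop_append _ _ _ (by omega)] at h6
    exact absurd h6 (h4 _ h)

theorem br_arith {Q Wd t t' i i' : ℕ} (hi : i < Q) (hi' : i' < Q)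
    (h1 : t * (Q * (Wd + 1)) + i * (Wd + 1) < t' * (Q * (Wd + 1)) + i' * (Wd + 1) + Wd)
    (h2 : t' * (Q * (Wd + 1)) + i' * (Wd + 1) < t * (Q * (Wd + 1)) + i * (Wd + 1) + Wd) :
    t = t' ∧ i = i' := by
  rw [← Nat.mul_assoc, ← Nat.mul_assoc, ← Nat.add_mul, ← Nat.add_mul] at h1 h2
  have h3 : t * Q + i < t' * Q + i' + 1 :=
    Nat.lt_of_mul_lt_mul_right (a := Wd + 1) (by rw [Nat.add_mul _ 1]; omega)
  have h4 : t' * Q + i' < t * Q + i + 1 :=
    Nat.lt_of_mul_lt_mul_right (a := Wd + 1) (by rw [Nat.add_mul _ 1]; omega)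
  have h5 : t < t' + 1 := Nat.lt_of_mul_lt_mul_right (a := Q) (by rw [Nat.add_mul]; omega)
  have h6 : t' < t + 1 := Nat.lt_of_mul_lt_mul_right (a := Q) (by rw [Nat.add_mul]; omega)
  have h7 : t = t' := by omega
  subst h7
  omega

theorem br_lt {Q E t n i : ℕ} (hE : 0 < E) (hi : i < Q) (ht : t < n) :
    t * (Q * E) + i * E < (t + 1) * (Q * E) ∧ (t + 1) * (Q * E) ≤ n * (Q * E) := by
  refine ⟨?_, Nat.mul_le_mul_right _ ht⟩
  rw [Nat.add_mul, Nat.one_mul]
  exact Nat.add_lt_add_left (Nat.mul_lt_mul_of_pos_right hi hE) _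

theorem br_run {X : Type} [Finite X] {π : List Γ → V X → V X} {act : List Γ → X → X}
    (h : ∀ u ξ η, π u (ξ + η) = π u ξ + push (act u) η) (us : List (List Γ)) (ξ η : V X) :
    run π us (ξ + η) = run π us ξ + push (run act us) η := by
  induction us generalizing ξ η with
  | nil => exact congrArg (ξ + ·) (push_id η).symm
  | cons u us ih =>
    rw [run_cons, h, ih, ← push_comp]
    rfl

theorem br_final {X : Type} [Finite X] {U : List Γ → Prop} (hU : PCode U)
    {π : List Γ → V X → V X} {act : List Γ → X → X}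
    (h : ∀ u ξ η, π u (ξ + η) = π u ξ + push (act u) η) (hF : ∀ ξ η, F1 (RunL U π ξ η))
    (x y : X) : F1 (RunL U act x y) := by
  classical
  refine (F1.ex fun η0 : V X =>
    (hF 0 η0).and (hF (Pi.single x 1) (η0 + Pi.single y 1))).congr fun w => ⟨?_, ?_⟩
  · rintro ⟨η0, ⟨us, h1, rfl, h2⟩, vs, h3, h4, h5⟩
    obtain rfl := hU.unique h1 h3 h4
    refine ⟨us, h1, rfl, single_inj ?_⟩
    rw [← zero_add (Pi.single x 1), br_run h, h2, push_single] at h5
    exact add_left_cancel h5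
  · rintro ⟨us, h1, rfl, h2⟩
    refine ⟨_, ⟨us, h1, rfl, rfl⟩, us, h1, rfl, ?_⟩
    rw [← zero_add (Pi.single x 1), br_run h, push_single, h2]

end aux

theorem badrun (M1 X : Type) [Monoid M1] [Finite M1] [Finite X] (Wd : ℕ) :
    ∃ lam : ℕ, ∀ (Γ : Type) [Finite Γ] (s : ℕ) (μ : Marker Γ s) (ψ : Γ → M1)
      (Bad : List Γ → Prop) (act : List Γ → X → X) (t B : ℕ), lam ≤ t →
      (∀ u, Bad u → μ.Rd t u) → (∀ u, Bad u → u.length ≤ B) →
      (∀ u, Bad u → ∃ f, lam ≤ f ∧ f < lam + Wd ∧ μ.Mk (u.drop f) ∧ ∀ i < f, ¬ μ.Mk (u.drop i)) →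
      (∀ u u', Bad u → Bad u' → val ψ (u.take lam) = val ψ (u'.take lam) →
        u.drop lam = u'.drop lam → act u = act u') →
      ∀ x y, F1 (RunL Bad act x y) := by
  obtain ⟨C⟩ := exists_clock Unit M1 (X ⊕ X)
  obtain ⟨Q, ⟨idx⟩⟩ := Finite.exists_equiv_fin (V X × M1 × C.W)
  refine ⟨C.n * (Q * (Wd + 1)), ?_⟩
  intro Γ _ s μ ψ Bad act T B hT hRd hB hf hact
  obtain ⟨syn, hsyn⟩ : ∃ syn : ℕ → List Γ → C.W,
    syn = brSyn C.v (fun w => C.c (val ψ w)) (Q * (Wd + 1)) := ⟨_, rfl⟩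
  obtain ⟨π, hπ⟩ : ∃ π : List Γ → V X → V X, ∀ u ξ, π u ξ = C.lab (syn C.n u) ∘ Sum.inr +
    push (act u) (ξ - C.lab (syn C.n u) ∘ Sum.inl) := ⟨fun u ξ => _, fun _ _ => rfl⟩
  obtain ⟨Off, hOff⟩ : ∃ Off : V X → List Γ → Prop, ∀ ξ a, Off ξ a ↔ ∃ t < C.n,
      a.length = t * (Q * (Wd + 1)) +
        idx (ξ, val ψ (a.take (t * (Q * (Wd + 1)))), syn t a) * (Wd + 1) :=
    ⟨fun ξ a => _, fun _ _ => Iff.rfl⟩
  have hU : PCode Bad := (μ.rd_code T).mono hRd
  have hOl : ∀ ξ a, Off ξ a → a.length < C.n * (Q * (Wd + 1)) := by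
    intro ξ a h
    obtain ⟨t, ht, e⟩ := (hOff ξ a).1 h
    obtain ⟨h1, h2⟩ := br_lt (Nat.succ_pos Wd)
      (idx (ξ, val ψ (a.take (t * (Q * (Wd + 1)))), syn t a)).2 ht
    rw [e]
    exact h1.trans_le h2
  refine br_final hU (π := π) (fun u ξ η => ?_) (F1.chain hU π Off (fun η b => b.length ≤ B ∧
    b ≠ [] ∧ ∀ ξ a u r r', Off ξ a → Bad u → a ++ b ++ r = u ++ r' → u = a ++ b ∧ π u ξ = η)
    ?_ ?_ ((List.finite_length_le Γ B).subset fun u hu => hB u hu)
    (fun ξ => (List.finite_length_lt Γ _).subset fun u hu => hOl ξ u hu)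
    (fun ξ => (List.finite_length_le Γ B).subset fun u hu => hu.1))
  · rw [hπ, hπ, add_sub_right_comm, push_add, add_assoc]
  · rintro ξ η a b r ha ⟨-, hb, hb'⟩ ⟨us, h1, h2⟩
    cases us with
    | nil => simp [hb] at h2
    | cons u us =>
      obtain ⟨h3, h4⟩ := hb' ξ a u r us.flatten ha (h1 u List.mem_cons_self) h2
      exact ⟨[u], by simpa using h1 u List.mem_cons_self, by simp [h3], h4⟩
  intro ξ u hu
  obtain ⟨t, -, ht, hsw⟩ := C.sweep (syn C.n u) (Sum.elim ξ (π u ξ)) (fun _ => 0) 0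
  rw [zero_add] at ht
  obtain ⟨f, hf1, hf2, hf3, hf4⟩ := hf u hu
  obtain ⟨d, hd⟩ : ∃ d, d = t * (Q * (Wd + 1)) +
    idx (ξ, val ψ (u.take (t * (Q * (Wd + 1)))), syn t u) * (Wd + 1) := ⟨_, rfl⟩
  obtain ⟨hd1, hd2⟩ := br_lt (Nat.succ_pos Wd)
    (idx (ξ, val ψ (u.take (t * (Q * (Wd + 1)))), syn t u)).2 ht
  rw [Nat.succ_eq_add_one, ← hd] at hd1
  rw [Nat.succ_eq_add_one] at hd2
  have hd0 : t * (Q * (Wd + 1)) ≤ d := by omega
  have hlen := μ.mk_drop_len hf3
  have htk : ∀ w : List Γ, (w.take d).take (t * (Q * (Wd + 1))) = w.take (t * (Q * (Wd + 1))) :=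
    fun w => by rw [List.take_take, Nat.min_eq_left hd0]
  have hsy : ∀ w : List Γ, syn t (w.take d) = syn t w := fun w => by
    rw [hsyn]; exact br_syn_take _ _ (htk w)
  refine ⟨u.take d, u.drop d, (List.take_append_drop d u).symm, (hOff _ _).2 ⟨t, ht, ?_⟩, ?_, ?_, ?_⟩
  · rw [htk, hsy, ← hd, List.length_take, Nat.min_eq_left (by omega)]
  · have := hB u hu
    rw [List.length_drop]; omega
  · rw [Ne, List.drop_eq_nil_iff]; omega
  intro ξ' a' u' r r' ha' hu' e
  obtain ⟨f', hf1', hf2', hf3', hf4'⟩ := hf u' hu'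
  have hlen' := μ.mk_drop_len hf3'
  have hal := hOl ξ' a' ha'
  obtain ⟨j, rfl⟩ := Nat.exists_eq_add_of_le (show d ≤ f by omega)
  have hj := br_first μ e (j := j) (by rwa [List.drop_drop])
    (fun i hi => by rw [List.drop_drop]; exact hf4 _ (by omega)) hf3' hf4' (by omega)
  obtain ⟨t', -, e'⟩ := (hOff _ _).1 ha'
  obtain ⟨rfl, hi⟩ := br_arith (Wd := Wd) (t := t) (t' := t')
    (idx (ξ, val ψ (u.take (t * (Q * (Wd + 1)))), syn t u)).2
    (idx (ξ', val ψ (a'.take (t' * (Q * (Wd + 1)))), syn t' a')).2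
    (by rw [← hd, ← e']; omega) (by rw [← hd, ← e']; omega)
  have had : a'.length = d := by rw [e', ← hi, ← hd]
  have hm := idx.injective (Fin.ext hi)
  rw [Prod.mk.injEq, Prod.mk.injEq] at hm
  obtain ⟨rfl, hm1, hm2⟩ := hm
  have e1 : u.drop d ++ r = u'.drop d ++ r' := by
    have h1 := congrArg (List.drop d) e
    rwa [List.append_assoc, List.drop_left' had, List.drop_append_of_le_length (by omega)] at h1
  have e2 : a' = u'.take d := by
    have h1 := congrArg (List.take d) e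
    rwa [List.append_assoc, List.take_left' had, List.take_append_of_le_length (by omega)] at h1
  have e3 := μ.rd_tail (show d ≤ T by omega) (hRd u hu) (hRd u' hu') e1
  refine ⟨by rw [e2, e3, List.take_append_drop], ?_⟩
  rw [e2, htk] at hm1
  rw [e2, hsy] at hm2
  have e4 := br_drop hd1.le e3
  have e5 : syn C.n u' = syn C.n u + C.v ^ t * (C.c (val ψ (brReg (Q * (Wd + 1)) t u')) -
      C.c (val ψ (brReg (Q * (Wd + 1)) t u))) := by
    rw [hsyn] at hm2 ⊢
    exact br_syn_split _ _ ht e4 hm2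
  by_cases hg : val ψ (brReg (Q * (Wd + 1)) t u') = val ψ (brReg (Q * (Wd + 1)) t u)
  · rw [hg, sub_self, mul_zero, add_zero] at e5
    rw [hπ, hπ, e5, hact u u' hu hu' (by
      rw [br_take ht, br_take ht, val_append, val_append, val_append, val_append, hm1, hg, e4])
      (br_drop hd2 e4)]
  · have h1 := (hsw () _ () _).1 rfl hg
    rw [sub_self, zero_add, ← e5] at h1
    rw [hπ u', h1, Sum.elim_comp_inl, Sum.elim_comp_inr, sub_self, push_zero, add_zero]

end Vale.Agent.P329
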