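import Vale.Agent.P329.Clos

/-! The chain lemma: a token jumps from cut to cut.
Plan for `chain`.  (→) induction on the list of units (generalizing `x`): a unit outside `Kill`
is absorbed in the leading `Rest`; a unit in `Kill` is split by `hC`.
(←) induction on the list of pieces: with `a ++ b ++ r` in `Star U`, `hS` gives that `a ++ b` is a run,
and `PCode.cancel` gives `Star U r`; then cancel the `Rest` factor and continue. -/

namespace Vale.Agent.P329

variable {α X : Type}

theorem PCode.mono {U U' : List α → Prop} (h : PCode U) (hU : ∀ u, U' u → U u) : PCode U' := by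
  exact ⟨fun e => h.1 (hU _ e), fun u u' r r' hu hu' => h.2 u u' r r' (hU _ hu) (hU _ hu')⟩

theorem PCode.unique {U : List α → Prop} (h : PCode U) {us vs : List (List α)}
    (hu : ∀ u ∈ us, U u) (hv : ∀ u ∈ vs, U u) (e : us.flatten = vs.flatten) : us = vs := by
  induction us generalizing vs with
  | nil =>
    cases vs with
    | nil => rfl
    | cons v vs =>
      have : v = [] := (List.append_eq_nil_iff.1 e.symm).1
      exact absurd (this ▸ hv v (by simp)) h.1
  | cons u us ih =>
    cases vs with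
    | nil =>
      have : u = [] := (List.append_eq_nil_iff.1 e).1
      exact absurd (this ▸ hu u (by simp)) h.1
    | cons v vs =>
      obtain rfl : u = v := h.2 u v _ _ (hu u (by simp)) (hv v (by simp)) e
      rw [ih (fun w hw => hu w (by simp [hw])) (fun w hw => hv w (by simp [hw]))
        (List.append_cancel_left e)]

theorem PCode.cancel {U : List α → Prop} (h : PCode U) {a r : List α}
    (ha : Star U a) (har : Star U (a ++ r)) : Star U r := by
  obtain ⟨us, hu, rfl⟩ := ha
  obtain ⟨vs, hv, e⟩ := har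
  induction us generalizing vs with
  | nil => exact ⟨vs, hv, e⟩
  | cons u us ih =>
    rw [List.flatten_cons, List.append_assoc] at e
    cases vs with
    | nil =>
      have : u = [] := (List.append_eq_nil_iff.1 e).1
      exact absurd (this ▸ hu u (by simp)) h.1
    | cons v vs =>
      obtain rfl : u = v := h.2 u v _ _ (hu u (by simp)) (hv v (by simp)) e
      exact ih (fun w hw => hu w (by simp [hw])) vs (fun w hw => hv w (by simp [hw]))
        (List.append_cancel_left e)

theorem RunL.append {U : List α → Prop} {π : List α → X → X} {x y z : X} {a b : List α}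
    (ha : RunL U π x y a) (hb : RunL U π y z b) : RunL U π x z (a ++ b) := by
  obtain ⟨us, hu, rfl, rfl⟩ := ha
  obtain ⟨vs, hv, rfl, rfl⟩ := hb
  exact ⟨us ++ vs, fun w hw => (List.mem_append.1 hw).elim (hu w) (hv w), by simp,
    run_append _ _ _ _⟩

theorem RunL.star {U : List α → Prop} {π : List α → X → X} {x y : X} {a : List α}
    (ha : RunL U π x y a) : Star U a := by
  obtain ⟨us, hu, e, -⟩ := ha
  exact ⟨us, hu, e⟩

theorem chain_nil {U : List α → Prop} {π : List α → X → X} (x : X) : RunL U π x x [] :=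
  ⟨[], by simp, rfl, rfl⟩

theorem chain_mono {U Kill : List α → Prop} {π : List α → X → X} {x y : X} {a : List α}
    (h : RunL (fun u => U u ∧ ¬ Kill u) π x y a) : RunL U π x y a := by
  obtain ⟨us, hu, e, hr⟩ := h
  exact ⟨us, fun u h => (hu u h).1, e, hr⟩

theorem chain_cat_fin {p q : List α → Prop} (hp : {w | p w}.Finite) (hq : {w | q w}.Finite) :
    {w | Cat p q w}.Finite :=
  (hp.image2 (· ++ ·) hq).subset fun _ ⟨a, b, ha, hb, e⟩ => ⟨a, ha, b, hb, e.symm⟩

/-- from one cut to the next one -/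
def Piece (Rest : X → X → List α → Prop) (Off Acc : X → List α → Prop) (w : List α) : Prop :=
  ∃ y x, Cat (Acc y) (Cat (Rest y x) (Off x)) w

theorem chain {U Kill : List α → Prop} (hU : PCode U) (π : List α → X → X)
    (Off Acc : X → List α → Prop)
    (hS : ∀ x y a b r, Off x a → Acc y b → Star U (a ++ b ++ r) → RunL U π x y (a ++ b))
    (hC : ∀ x u, U u → Kill u → ∃ a b, u = a ++ b ∧ Off x a ∧ Acc (π u x) b)
    (x y : X) (w : List α) :
    RunL U π x y w ↔ Star U w ∧ (RunL (fun u => U u ∧ ¬ Kill u) π x y w ∨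
      ∃ x1 y1, Cat (RunL (fun u => U u ∧ ¬ Kill u) π x x1) (Cat (Off x1)
        (Cat (Star (Piece (RunL (fun u => U u ∧ ¬ Kill u) π) Off Acc))
          (Cat (Acc y1) (RunL (fun u => U u ∧ ¬ Kill u) π y1 y)))) w) := by
  constructor
  · intro h
    refine ⟨h.star, ?_⟩
    obtain ⟨us, hu, rfl, hr⟩ := h
    induction us generalizing x with
    | nil => exact Or.inl ⟨[], by simp, rfl, hr⟩
    | cons u us ih =>
      have h0 := hu u (by simp)
      have h1 := ih (π u x) (fun w hw => hu w (by simp [hw])) hr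
      by_cases hK : Kill u
      · obtain ⟨a, b, rfl, ha, hb⟩ := hC x u h0 hK
        refine Or.inr ?_
        rcases h1 with h1 | ⟨x1, y1, r0, _, hr0, ⟨a', _, ha', ⟨_, _, ⟨ps, hps, rfl⟩, ht, rfl⟩, rfl⟩, e⟩
        · exact ⟨x, _, [], _, chain_nil x, ⟨a, _, ha, ⟨[], _, ⟨[], by simp, rfl⟩,
            ⟨b, _, hb, h1, rfl⟩, rfl⟩, rfl⟩, by simp⟩
        · refine ⟨x, y1, [], _, chain_nil x, ⟨a, _, ha, ⟨_, _, ⟨(b ++ (r0 ++ a')) :: ps, ?_, rfl⟩,
            ht, rfl⟩, rfl⟩, by simp [e]⟩
          intro p hp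
          rcases List.mem_cons.1 hp with rfl | hp
          · exact ⟨_, x1, b, _, hb, ⟨r0, a', hr0, ha', rfl⟩, rfl⟩
          · exact hps p hp
      · have h2 : RunL (fun u => U u ∧ ¬ Kill u) π x (π u x) u :=
          ⟨[u], by simpa using ⟨h0, hK⟩, by simp, rfl⟩
        rcases h1 with h1 | ⟨x1, y1, r0, t, hr0, ht, e⟩
        · exact Or.inl (h2.append h1)
        · exact Or.inr ⟨x1, y1, u ++ r0, t, h2.append hr0, ht, by simp [e]⟩
  · rintro ⟨hw, h | ⟨x1, y1, r0, _, hr0, ⟨a, _, ha, ⟨_, _, ⟨ps, hps, rfl⟩,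
      ⟨b, r1, hb, hr1, rfl⟩, rfl⟩, rfl⟩, rfl⟩⟩
    · exact chain_mono h
    · refine (chain_mono hr0).append ?_
      have hw' := hU.cancel (chain_mono hr0).star hw
      clear hw hr0
      induction ps generalizing x1 a with
      | nil =>
        rw [List.flatten_nil, List.nil_append, ← List.append_assoc] at hw' ⊢
        exact (hS x1 y1 a b r1 ha hb hw').append (chain_mono hr1)
      | cons p ps ih =>
        obtain ⟨y', x', b', _, hb', ⟨r', a', hr', ha', rfl⟩, rfl⟩ := hps p (by simp)
        have e : a ++ (((b' ++ (r' ++ a')) :: ps).flatten ++ (b ++ r1)) =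
            a ++ b' ++ (r' ++ (a' ++ (ps.flatten ++ (b ++ r1)))) := by simp
        rw [e] at hw' ⊢
        have h1 := hS x1 y' a b' _ ha hb' hw'
        exact h1.append ((chain_mono hr').append (ih x' a' ha' (fun q hq => hps q (by simp [hq]))
          (hU.cancel (chain_mono hr').star (hU.cancel h1.star hw'))))

/-- the chain lemma for star height -/
theorem H.chain [Finite X] {k : ℕ} {U Kill : List α → Prop} (hU : PCode U) (π : List α → X → X)
    (Off Acc : X → List α → Prop)
    (hS : ∀ x y a b r, Off x a → Acc y b → Star U (a ++ b ++ r) → RunL U π x y (a ++ b))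
    (hC : ∀ x u, U u → Kill u → ∃ a b, u = a ++ b ∧ Off x a ∧ Acc (π u x) b)
    (h1 : H k U) (h2 : ∀ x, H k (Off x)) (h3 : ∀ x, H k (Acc x))
    (h4 : ∀ x y, H k (RunL (fun u => U u ∧ ¬ Kill u) π x y)) (x y : X) :
    H (k + 1) (RunL U π x y) := by
  have m : k ≤ k + 1 := Nat.le_succ k
  have hP : H k (Piece (RunL (fun u => U u ∧ ¬ Kill u) π) Off Acc) :=
    H.ex fun y => H.ex fun x => (h3 y).cat ((h4 y x).cat (h2 x))
  exact (h1.star.and (((h4 x y).mono m).or (H.ex fun x1 => H.ex fun y1 =>
    ((h4 x x1).mono m).cat (((h2 x1).mono m).cat (hP.star.cat (((h3 y1).mono m).cat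
      ((h4 y1 y).mono m))))))).congr fun w => (P329.chain hU π Off Acc hS hC x y w).symm

/-- the chain lemma when everything is finite and every unit is cut -/
theorem F1.chain [Finite X] {U : List α → Prop} (hU : PCode U) (π : List α → X → X)
    (Off Acc : X → List α → Prop)
    (hS : ∀ x y a b r, Off x a → Acc y b → Star U (a ++ b ++ r) → RunL U π x y (a ++ b))
    (hC : ∀ x u, U u → ∃ a b, u = a ++ b ∧ Off x a ∧ Acc (π u x) b)
    (h1 : {u | U u}.Finite) (h2 : ∀ x, {u | Off x u}.Finite) (h3 : ∀ x, {u | Acc x u}.Finite)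
    (x y : X) : F1 (RunL U π x y) := by
  have h4 : ∀ x y, {w | RunL (fun u => U u ∧ ¬ True) π x y w}.Finite := fun x y => by
    refine (Set.finite_singleton []).subset ?_
    rintro w ⟨us, hu, rfl, -⟩
    cases us with
    | nil => rfl
    | cons u us => exact absurd trivial (hu u (by simp)).2
  have hP : {w | Piece (RunL (fun u => U u ∧ ¬ True) π) Off Acc w}.Finite := by
    refine (Set.finite_iUnion fun y => Set.finite_iUnion fun x =>
      chain_cat_fin (h3 y) (chain_cat_fin (h4 y x) (h2 x))).subset ?_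
    rintro w ⟨y, x, h⟩
    exact Set.mem_iUnion.2 ⟨y, Set.mem_iUnion.2 ⟨x, h⟩⟩
  exact ((F1.starfin h1).and ((F1.fin (h4 x y)).or (F1.ex fun x1 => F1.ex fun y1 =>
    (F1.fin (h4 x x1)).cat ((F1.fin (h2 x1)).cat ((F1.starfin hP).cat ((F1.fin (h3 y1)).cat
      (F1.fin (h4 y1 y)))))))).congr fun w =>
    (P329.chain (Kill := fun _ => True) hU π Off Acc hS (fun x u hu _ => hC x u hu) x y w).symm

end Vale.Agent.P329
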