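import Vale.Agent.P329.Defs

/-! Closure properties of `H k`.  All easy: build the expression, unfold `GRE.lang`
(`Language.mem_add`, `mem_mul`, `mem_kstar`; complement is `Set` complement, `Iff.rfl`).
`H.ex`: induction over a `Finset` / `Set.Finite`.  `H.word`: induction on the word.
`F1.take`: split into words shorter than `B` (a finite set, `List.finite_length_lt`) and
`x ++ anything` for the finitely many `x` of length `B` with `p x`. -/

namespace Vale.Agent.P329

variable {α Γ X M : Type}

theorem H.congr {k : ℕ} {p q : List α → Prop} (h : H k p) (e : ∀ w, p w ↔ q w) : H k q := by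
  obtain ⟨P, h1, h2⟩ := h
  exact ⟨P, h1, fun w => (h2 w).trans (e w)⟩

theorem H.mono {k l : ℕ} {p : List α → Prop} (h : H k p) (hkl : k ≤ l) : H l p := by
  obtain ⟨P, h1, h2⟩ := h
  exact ⟨P, h1.trans hkl, h2⟩

theorem H.bot (k : ℕ) : H k (fun _ : List α => False) := by
  exact ⟨.zero, Nat.zero_le _, fun w => by simp [GRE.lang]⟩

theorem H.top (k : ℕ) : H k (fun _ : List α => True) := by
  refine ⟨.compl .zero, Nat.zero_le _, fun w => ?_⟩
  exact iff_of_true (fun h => Language.notMem_zero w h) trivial

theorem H.or {k : ℕ} {p q : List α → Prop} (hp : H k p) (hq : H k q) :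
    H k (fun w => p w ∨ q w) := by
  obtain ⟨P, h1, h2⟩ := hp
  obtain ⟨Q, h3, h4⟩ := hq
  exact ⟨.union P Q, max_le h1 h3, fun w => by rw [GRE.lang, Language.mem_add, h2, h4]⟩

theorem H.not {k : ℕ} {p : List α → Prop} (hp : H k p) : H k (fun w => ¬ p w) := by
  obtain ⟨P, h1, h2⟩ := hp
  exact ⟨.compl P, h1, fun w => not_congr (h2 w)⟩

theorem H.and {k : ℕ} {p q : List α → Prop} (hp : H k p) (hq : H k q) :
    H k (fun w => p w ∧ q w) := by
  exact (hp.not.or hq.not).not.congr fun w => by tauto

theorem H.cat {k : ℕ} {p q : List α → Prop} (hp : H k p) (hq : H k q) : H k (Cat p q) := by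
  obtain ⟨P, h1, h2⟩ := hp
  obtain ⟨Q, h3, h4⟩ := hq
  refine ⟨.concat P Q, max_le h1 h3, fun w => ?_⟩
  rw [GRE.lang, Language.mem_mul]
  constructor
  · rintro ⟨a, ha, b, hb, rfl⟩
    exact ⟨a, b, (h2 a).1 ha, (h4 b).1 hb, rfl⟩
  · rintro ⟨a, b, ha, hb, rfl⟩
    exact ⟨a, (h2 a).2 ha, b, (h4 b).2 hb, rfl⟩

theorem H.star {k : ℕ} {p : List α → Prop} (hp : H k p) : H (k + 1) (Star p) := by
  obtain ⟨P, h1, h2⟩ := hp
  refine ⟨.star P, Nat.succ_le_succ h1, fun w => ?_⟩
  rw [GRE.lang, Language.mem_kstar]
  constructor
  · rintro ⟨L, rfl, hL⟩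
    exact ⟨L, fun u hu => (h2 u).1 (hL u hu), rfl⟩
  · rintro ⟨L, hL, rfl⟩
    exact ⟨L, rfl, fun u hu => (h2 u).2 (hL u hu)⟩

/-- a proposition that does not depend on the word -/
theorem H.const (k : ℕ) (c : Prop) : H k (fun _ : List α => c) := by
  by_cases h : c
  · exact (H.top k).congr fun _ => by simp [h]
  · exact (H.bot k).congr fun _ => by simp [h]

/-- union over a finite set of indices -/
theorem H.exSet {ι : Type} {k : ℕ} {S : Set ι} (hS : S.Finite) {p : ι → List α → Prop}
    (hp : ∀ i ∈ S, H k (p i)) : H k (fun w => ∃ i ∈ S, p i w) := by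
  induction S, hS using Set.Finite.induction_on with
  | empty => exact (H.bot k).congr fun _ => by simp
  | insert _ _ ih =>
    exact ((hp _ (Set.mem_insert _ _)).or (ih fun i hi => hp i (Set.mem_insert_of_mem _ hi))).congr
      fun _ => by simp

theorem H.ex {ι : Type} [Finite ι] {k : ℕ} {p : ι → List α → Prop}
    (hp : ∀ i, H k (p i)) : H k (fun w => ∃ i, p i w) := by
  exact (H.exSet (S := Set.univ) Set.finite_univ fun i _ => hp i).congr fun _ => by simp

theorem H.word (k : ℕ) (x : List α) : H k (fun w => w = x) := by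
  induction x with
  | nil => exact ⟨.one, Nat.zero_le _, fun w => by rw [GRE.lang, Language.mem_one]⟩
  | cons a x ih =>
    have h1 : H k (fun w : List α => w = [a]) := ⟨.letter a, Nat.zero_le _, fun w => Iff.rfl⟩
    refine (h1.cat ih).congr fun w => ⟨?_, fun h => ⟨[a], x, rfl, rfl, h⟩⟩
    rintro ⟨_, _, rfl, rfl, rfl⟩
    rfl

theorem H.finite (k : ℕ) {p : List α → Prop} (hp : {w | p w}.Finite) : H k p := by
  exact (H.exSet hp fun x _ => H.word k x).congr fun w => by simp

theorem F1.congr {p q : List α → Prop} (h : F1 p) (e : ∀ w, p w ↔ q w) : F1 q := by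
  have : p = q := funext fun w => propext (e w)
  exact this ▸ h

theorem F1.toH {p : List α → Prop} (h : F1 p) : H 1 p := by
  induction h with
  | fin h => exact H.finite 1 h
  | starfin h => exact (H.finite 0 h).star
  | or _ _ h1 h2 => exact h1.or h2
  | not _ h1 => exact h1.not
  | cat _ _ h1 h2 => exact h1.cat h2

theorem F1.and {p q : List α → Prop} (hp : F1 p) (hq : F1 q) : F1 (fun w => p w ∧ q w) := by
  exact (hp.not.or hq.not).not.congr fun w => by tauto

theorem F1.const (c : Prop) : F1 (fun _ : List α => c) := by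
  have h0 : F1 (fun _ : List α => False) := F1.fin (by simp)
  by_cases h : c
  · exact h0.not.congr fun _ => by simp [h]
  · exact h0.congr fun _ => by simp [h]

theorem F1.exSet {ι : Type} {S : Set ι} (hS : S.Finite) {p : ι → List α → Prop}
    (hp : ∀ i ∈ S, F1 (p i)) : F1 (fun w => ∃ i ∈ S, p i w) := by
  induction S, hS using Set.Finite.induction_on with
  | empty => exact (F1.const False).congr fun _ => by simp
  | insert _ _ ih =>
    exact ((hp _ (Set.mem_insert _ _)).or (ih fun i hi => hp i (Set.mem_insert_of_mem _ hi))).congr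
      fun _ => by simp

theorem F1.ex {ι : Type} [Finite ι] {p : ι → List α → Prop}
    (hp : ∀ i, F1 (p i)) : F1 (fun w => ∃ i, p i w) := by
  exact (F1.exSet (S := Set.univ) Set.finite_univ fun i _ => hp i).congr fun _ => by simp

theorem F1.short [Finite α] (B : ℕ) {p : List α → Prop} (hp : ∀ w, p w → w.length ≤ B) :
    F1 p := by
  exact F1.fin ((List.finite_length_le α B).subset fun w hw => hp w hw)

/-- a property that depends only on the first `B` letters -/
theorem F1.take [Finite α] (B : ℕ) {p : List α → Prop}
    (hp : ∀ u u' : List α, u.take B = u'.take B → p u → p u') : F1 p := by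
  have h1 : F1 (fun w => p w ∧ w.length ≤ B) := F1.short B fun w h => h.2
  have h2 : F1 (fun w => p w ∧ w.length = B) := F1.short B fun w h => h.2.le
  refine (h1.or (h2.cat (F1.const True))).congr fun w => ⟨?_, fun h => ?_⟩
  · rintro (h | ⟨a, b, ⟨ha, hl⟩, -, rfl⟩)
    · exact h.1
    · exact hp a _ (by subst hl; simp) ha
  · by_cases hl : w.length ≤ B
    · exact Or.inl ⟨h, hl⟩
    · exact Or.inr ⟨w.take B, w.drop B, ⟨hp w _ (by simp [List.take_take]) h, by simp; omega⟩, trivial,
        (List.take_append_drop B w).symm⟩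

section val
variable [Monoid M] (ψ : α → M)

@[simp] theorem val_nil : val ψ [] = 1 := by
  simp [val]

@[simp] theorem val_cons (a : α) (w : List α) : val ψ (a :: w) = ψ a * val ψ w := by
  simp [val]

@[simp] theorem val_append (u w : List α) : val ψ (u ++ w) = val ψ u * val ψ w := by
  simp [val]

end val

@[simp] theorem run_nil (π : List α → X → X) (x : X) : run π [] x = x := rfl

@[simp] theorem run_cons (π : List α → X → X) (u : List α) (us : List (List α)) (x : X) :
    run π (u :: us) x = run π us (π u x) := rfl

theorem run_append (π : List α → X → X) (us vs : List (List α)) (x : X) :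
    run π (us ++ vs) x = run π vs (run π us x) := by
  simp [run]

theorem push_id [Finite X] (ξ : V X) : push id ξ = ξ := by
  classical
  funext y
  have := Fintype.ofFinite X
  simp [push, finsum_eq_sum_of_fintype]

theorem push_comp [Finite X] (f g : X → X) (ξ : V X) : push (g ∘ f) ξ = push g (push f ξ) := by
  classical
  funext y
  have := Fintype.ofFinite X
  simp only [push, finsum_eq_sum_of_fintype, Function.comp]
  have e : ∀ z, (if g z = y then ∑ x, (if f x = z then ξ x else 0) else 0) =
      ∑ x, if f x = z then (if g (f x) = y then ξ x else 0) else 0 := fun z => by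
    split_ifs with h
    · refine Finset.sum_congr rfl fun x _ => ?_
      by_cases h' : f x = z
      · simp [h', h]
      · simp [h']
    · refine (Finset.sum_eq_zero fun x _ => ?_).symm
      by_cases h' : f x = z
      · simp [h', h]
      · simp [h']
  simp only [e]
  rw [Finset.sum_comm]
  simp

theorem push_add [Finite X] (f : X → X) (ξ η : V X) :
    push f (ξ + η) = push f ξ + push f η := by
  classical
  funext y
  have := Fintype.ofFinite X
  simp only [push, finsum_eq_sum_of_fintype, Pi.add_apply, ← Finset.sum_add_distrib]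
  refine Finset.sum_congr rfl fun x _ => ?_
  split_ifs <;> simp

theorem push_sub [Finite X] (f : X → X) (ξ η : V X) :
    push f (ξ - η) = push f ξ - push f η := by
  classical
  funext y
  have := Fintype.ofFinite X
  simp only [push, finsum_eq_sum_of_fintype, Pi.sub_apply, ← Finset.sum_sub_distrib]
  refine Finset.sum_congr rfl fun x _ => ?_
  split_ifs <;> simp

theorem push_zero [Finite X] (f : X → X) : push f 0 = 0 := by
  funext y
  simp [push]

theorem push_single [Finite X] [DecidableEq X] (f : X → X) (x : X) :
    push f (Pi.single x 1) = Pi.single (f x) 1 := by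
  funext y
  have := Fintype.ofFinite X
  simp only [push, finsum_eq_sum_of_fintype]
  rw [Finset.sum_eq_single x]
  · classical
    by_cases h : f x = y
    · subst h; simp
    · simp [h, Pi.single_apply, Ne.symm h]
  · intro b _ hb
    simp [hb]
  · simp

theorem single_inj [DecidableEq X] {x y : X}
    (h : (Pi.single x 1 : V X) = Pi.single y 1) : x = y := by
  by_contra hne
  have := congrFun h x
  simp [hne] at this

end Vale.Agent.P329
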