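import Vale.Agent.P329.Top

namespace Vale.Agent.P329

theorem evalFrom_eq_val {α σ : Type} (A : DFA α σ) (w : List α) (q : σ) :
    A.evalFrom q w =
      (val (fun a => MulOpposite.op (show Function.End σ from fun x => A.step x a)) w).unop q := by
  induction w generalizing q with
  | nil => rfl
  | cons a w ih =>
    rw [val_cons, MulOpposite.unop_mul, DFA.evalFrom_cons, ih]
    rfl

theorem main {α : Type} [Finite α] (L : Language α) (hL : L.IsRegular) :
    ∃ P : GRE α, P.lang = L ∧ P.sh ≤ 3 := by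
  obtain ⟨σ, _, A, rfl⟩ := hL
  have : Finite (Function.End σ) := inferInstanceAs (Finite (σ → σ))
  have : Finite (Function.End σ)ᵐᵒᵖ := Finite.of_equiv _ MulOpposite.opEquiv
  let φ : α → (Function.End σ)ᵐᵒᵖ :=
    fun a => MulOpposite.op (show Function.End σ from fun x => A.step x a)
  have h : H 3 (fun w => ∃ m : (Function.End σ)ᵐᵒᵖ, m.unop A.start ∈ A.accept ∧ val φ w = m) :=
    H.ex fun m => (H.const 3 _).and (monoid_three φ m)
  obtain ⟨P, hP, hw⟩ := h
  refine ⟨P, ?_, hP⟩
  ext w
  rw [hw, DFA.mem_accepts, DFA.eval, evalFrom_eq_val]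
  constructor
  · rintro ⟨m, hm, rfl⟩
    exact hm
  · intro hm
    exact ⟨_, hm, rfl⟩

end Vale.Agent.P329
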