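import Vale.Agent.P329.Round

/-! Geometry of cuts in rounds (both layers); only `Round.lean` lemmas and `omega`.
Big layer: cut positions in `[lam, lam+ν)`, threshold `lam+ν`.
Small layer: cut positions `lam + i`, `i ∈ I ⊆ [0,a)`, threshold `lam + 2a`. -/

namespace Vale.Agent.P329
namespace Marker

variable {α : Type} {s : ℕ} (μ : Marker α s)

theorem geo_len_ge [Finite α] (c : ℕ) : F1 (fun b : List α => c ≤ b.length) := by
  refine F1.take c fun u u' h hu => ?_
  have := congrArg List.length h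
  simp only [List.length_take] at this
  omega

theorem geo_len_eq [Finite α] (c : ℕ) : F1 (fun b : List α => b.length = c) :=
  F1.short c fun _ h => h.le

theorem two_drop {t θ j : ℕ} {u : List α} (hu : μ.Rd t u) (h : μ.Mk (u.drop (θ + j)))
    (hf : θ + j < t) (hs : t ≤ s) : μ.Two j (u.drop θ) := by
  have hl := hu.1
  refine ⟨by rwa [List.drop_drop], fun i hi h' => ?_,
    μ.rd_drop hu (by omega) fun i h3 h4 h5 => ?_⟩
  · rw [List.drop_drop] at h'
    have := μ.sep' h' h (by omega)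
    omega
  · have := μ.sep' h h5 (by omega)
    omega

/-- big rounds after which nothing is reset -/
def Pend (lam ν : ℕ) (u : List α) : Prop :=
  (∀ f < lam + ν, ¬ μ.Mk (u.drop f)) ∧ ∃ f < lam + 2 * ν, μ.Mk (u.drop f)

def BGood (lam ν : ℕ) : List α → Prop :=
  μ.Good lam (lam + ν) (lam + 3 * ν) (μ.R + lam + 2 * ν)

def BAcc (lam ν : ℕ) (b : List α) : Prop :=
  (μ.Rd 0 b ∧ 2 * ν + μ.R ≤ b.length) ∨
    ∃ j < ν, μ.Two j b ∧ j + (μ.R + lam + 2 * ν) + μ.R ≤ b.length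

theorem bgood_not_pend {lam ν : ℕ} {u : List α} (h : μ.BGood lam ν u) : ¬ μ.Pend lam ν u := by
  rintro ⟨h1, f, hf, h2⟩
  rcases h with ⟨g, hg, h⟩ | h | ⟨g, hg, h, -⟩
  · exact h1 g (by omega) h
  · exact h f (by omega) h2
  · exact h1 g hg h

theorem big_sound {lam ν : ℕ} (hs : lam + 3 * ν ≤ s) {a b : List α} (h1 : lam ≤ a.length)
    (h2 : a.length < lam + ν) (hb : μ.BAcc lam ν b) :
    (μ.Rd (lam + ν) (a ++ b) ∧ ¬ μ.Pend lam ν (a ++ b)) ∨
      ∃ u1 u2, a ++ b = u1 ++ u2 ∧ μ.Rd (lam + ν) u1 ∧ μ.Pend lam ν u1 ∧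
        μ.Rd (lam + ν) u2 ∧ ¬ μ.Pend lam ν u2 := by
  rcases hb with ⟨hb, hl⟩ | ⟨j, hj, ⟨hm, hn, hb⟩, hl⟩
  · refine Or.inl ⟨μ.rd_append hb (by omega) (by omega), ?_⟩
    rintro ⟨h3, f, hf, h4⟩
    have hf2 : a.length ≤ f := by
      by_contra hc
      exact h3 f (by omega) h4
    obtain ⟨e, rfl⟩ := Nat.exists_eq_add_of_le hf2
    have := μ.rd_first hb (Nat.zero_le e) ((μ.mk_append_drop a b e).1 h4)
    omega
  · by_cases hc : a.length + j < lam + ν
    · refine Or.inl ⟨μ.rd_append hb (by omega) (by omega), ?_⟩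
      rintro ⟨h3, -⟩
      exact h3 _ hc ((μ.mk_append_drop a b j).2 hm)
    · have hm1 : μ.Mk ((a ++ b.take (j + μ.R)).drop (a.length + j)) :=
        (μ.mk_append_drop _ _ _).2 ((μ.mk_take_drop _ _ _ le_rfl).2 hm)
      refine Or.inr ⟨a ++ b.take (j + μ.R), b.drop (j + μ.R), by simp,
        μ.rd_take hm hn (by omega) (by omega), ⟨fun f hf h => ?_, _, by omega, hm1⟩,
        μ.rd_drop hb (by omega) (fun i h h' => by omega), ?_⟩
      · have := μ.sep' h hm1 (by omega)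
        omega
      · rintro ⟨-, f, hf, h4⟩
        rw [List.drop_drop] at h4
        exact hb.2.2 _ (by have := μ.R_pos; omega) (by omega) h4

theorem big_complete {lam ν : ℕ} (hs : lam + 3 * ν ≤ s) {u : List α} (hu : μ.Rd (lam + ν) u)
    (hg : μ.BGood lam ν u) {θ : ℕ} (h1 : lam ≤ θ) (h2 : θ < lam + ν) :
    μ.BAcc lam ν (u.drop θ) := by
  have hF := hu.2.1
  have hl := hu.1
  have early : ∀ f, f < θ → μ.Mk (u.drop f) → μ.BAcc lam ν (u.drop θ) := by
    intro f hf h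
    have := μ.sep' h hF (by omega)
    refine Or.inl ⟨μ.rd_drop hu (by omega) fun i h3 h4 h5 => ?_, by simp; omega⟩
    have := μ.sep' h h5 (by omega)
    omega
  rcases hg with ⟨f, hf, h⟩ | h | ⟨f, hf, h, hlong⟩
  · exact early f (by omega) h
  · have : lam + 3 * ν ≤ u.length - μ.R := by
      by_contra hc
      exact h _ (by omega) hF
    exact Or.inl ⟨μ.rd_drop hu (by omega) fun i h3 h4 => h i (by omega), by simp; omega⟩
  · by_cases hc : f < θ
    · exact early f hc h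
    · obtain ⟨j, rfl⟩ := Nat.exists_eq_add_of_le (not_lt.1 hc)
      exact Or.inr ⟨j, by omega, μ.two_drop hu h hf (by omega), by simp; omega⟩

theorem f1_bacc [Finite α] (lam ν : ℕ) : F1 (μ.BAcc lam ν) := by
  refine F1.or ((μ.f1_rd 0).and (geo_len_ge _)) ?_
  exact F1.exSet (Set.finite_lt_nat ν) fun j _ => (μ.f1_two j).and (geo_len_ge _)

theorem thin_bacc (lam ν : ℕ) : Thin (μ.BAcc lam ν) := by
  refine (μ.per ν).mono ?_
  rintro w (⟨h, -⟩ | ⟨j, hj, h, -⟩)
  · exact μ.rd_thin (Nat.zero_le _) w h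
  · exact μ.rd_thin (by omega) w h.2.2

variable {N : ℕ} (S : Inst N)

/-- small rounds that end with an event -/
def Ev (lam : ℕ) : List α → Prop :=
  μ.Good (lam + S.a) (lam + 2 * S.a) (lam + 4 * S.a) (μ.R + lam + 4 * S.a)

/-- the offer at instant `i` meets an isolated accepted reading -/
def Coin (lam : ℕ) (u : List α) (i : ℕ) : Prop :=
  i ∈ S.I ∧ ∃ j ∈ S.J, i + j < 4 * S.a ∧ μ.Mk (u.drop (lam + i + j))

def SAcc (lam : ℕ) (b : List α) : Prop :=
  (μ.Rd 0 b ∧ (4 * S.a + μ.R ≤ b.length ∨ ∃ j ∈ S.J, 3 * S.a < j ∧ b.length = j + μ.R)) ∨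
    (∃ j ∈ S.J, j < S.a ∧ μ.Two j b) ∨
    (∃ j ≤ 2 * S.a, μ.Two j b ∧ j + (μ.R + lam + 4 * S.a) + μ.R ≤ b.length)

theorem coin_unique {lam : ℕ} (hs : lam + 5 * S.a ≤ s) {u : List α} (hu : ¬ μ.Ev S lam u)
    {i i' : ℕ} (h : μ.Coin S lam u i) (h' : μ.Coin S lam u i') : i = i' := by
  obtain ⟨hi, j, hj, h1, h2⟩ := h
  obtain ⟨hi', j', hj', h1', h2'⟩ := h'
  have e : i + j = i' + j' := by
    rcases lt_trichotomy (i + j) (i' + j') with hc | hc | hc
    · have := μ.sep' h2 h2' (by omega)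
      omega
    · exact hc
    · have := μ.sep' h2' h2 (by omega)
      omega
  refine S.uniq i hi i' hi' j hj j' hj' e ?_ h1
  by_contra hc
  exact hu (Or.inl ⟨_, by omega, h2⟩)

theorem small_sound {lam : ℕ} (hs : lam + 5 * S.a ≤ s) {a b : List α} {i : ℕ} (hi : i ∈ S.I)
    (ha : a.length = lam + i) (hb : μ.SAcc S lam b) :
    (μ.Rd (lam + 2 * S.a) (a ++ b) ∧ μ.Ev S lam (a ++ b)) ∨
    (μ.Rd (lam + 2 * S.a) (a ++ b) ∧ ¬ μ.Ev S lam (a ++ b) ∧ μ.Coin S lam (a ++ b) i) ∨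
      ∃ u1 u2, a ++ b = u1 ++ u2 ∧ μ.Rd (lam + 2 * S.a) u1 ∧ ¬ μ.Ev S lam u1 ∧
        (∀ i', ¬ μ.Coin S lam u1 i') ∧ μ.Rd (lam + 2 * S.a) u2 ∧ μ.Ev S lam u2 := by
  have hia := S.I_lt i hi
  rcases hb with ⟨hb, hl | ⟨j, hj, h3, hl⟩⟩ | ⟨j, hj, h3, hm, hn, hb⟩ | ⟨j, hj, ⟨hm, hn, hb⟩, hl⟩
  · refine Or.inl ⟨μ.rd_append hb (by omega) (by omega), ?_⟩
    by_cases hc : ∃ f < lam + S.a, μ.Mk ((a ++ b).drop f)
    · exact Or.inl hc
    · refine Or.inr (Or.inl fun f hf h => ?_)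
      have hf2 : a.length ≤ f := by
        by_contra h4
        exact hc ⟨f, by omega, h⟩
      obtain ⟨e, rfl⟩ := Nat.exists_eq_add_of_le hf2
      have := μ.rd_first hb (Nat.zero_le e) ((μ.mk_append_drop a b e).1 h)
      omega
  · have hr : μ.Rd (lam + 2 * S.a) (a ++ b) := μ.rd_append hb (by omega) (by omega)
    by_cases he : μ.Ev S lam (a ++ b)
    · exact Or.inl ⟨hr, he⟩
    · obtain ⟨f, h4, h5, h6, -⟩ := μ.bad_first he
      obtain ⟨e, rfl⟩ := Nat.exists_eq_add_of_le (show a.length ≤ f by omega)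
      have := μ.rd_first hb (Nat.zero_le e) ((μ.mk_append_drop a b e).1 h6)
      obtain rfl : e = j := by omega
      exact Or.inr (Or.inl ⟨hr, he, hi, e, hj, by omega, by rwa [← ha]⟩)
  · have h4 := hb.1
    have h5 := μ.sep' hm hb.2.1 (by omega)
    have hr : μ.Rd (lam + 2 * S.a) (a ++ b) := μ.rd_append hb (by omega) (by omega)
    by_cases he : μ.Ev S lam (a ++ b)
    · exact Or.inl ⟨hr, he⟩
    · exact Or.inr (Or.inl ⟨hr, he, hi, j, hj, by omega,
        by rw [← ha]; exact (μ.mk_append_drop a b j).2 hm⟩)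
  · by_cases hc : i + j < 2 * S.a
    · refine Or.inl ⟨μ.rd_append hb (by omega) (by omega), Or.inr (Or.inr
        ⟨a.length + j, by omega, (μ.mk_append_drop a b j).2 hm, by simp; omega⟩)⟩
    · have hm1 : μ.Mk ((a ++ b.take (j + μ.R)).drop (a.length + j)) :=
        (μ.mk_append_drop _ _ _).2 ((μ.mk_take_drop _ _ _ le_rfl).2 hm)
      refine Or.inr (Or.inr ⟨a ++ b.take (j + μ.R), b.drop (j + μ.R), by simp,
        μ.rd_take hm hn (by omega) (by omega), ?_, ?_,
        μ.rd_drop hb (by omega) (fun i h h' => by omega), Or.inr (Or.inl fun f hf h4 => ?_)⟩)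
      · rintro (⟨f, hf, h⟩ | h | ⟨f, hf, h, -⟩)
        · have := μ.sep' h hm1 (by omega)
          omega
        · exact h _ (by omega) hm1
        · have := μ.sep' h hm1 (by omega)
          omega
      · rintro i' ⟨hi', j', hj', h4, h5⟩
        have h6 := S.I_lt i' hi'
        have h7 := S.J_rng j' hj'
        rcases lt_trichotomy (i + j) (i' + j') with h8 | h8 | h8
        · have := μ.sep' hm1 h5 (by omega)
          omega
        · omega
        · have := μ.sep' h5 hm1 (by omega)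
          omega
      · rw [List.drop_drop] at h4
        exact hb.2.2 _ (by have := μ.R_pos; omega) (by omega) h4

theorem small_complete {lam : ℕ} (hs : lam + 5 * S.a ≤ s) {u : List α}
    (hu : μ.Rd (lam + 2 * S.a) u) (he : μ.Ev S lam u) {g : ℕ} (hg : g < N) :
    ∃ i ∈ S.I, i % N = g ∧ μ.SAcc S lam (u.drop (lam + i)) := by
  have hF := hu.2.1
  have hl := hu.1
  have hN := S.N_le
  have early : ∀ f, f < lam + S.a → μ.Mk (u.drop f) →
      ∃ i ∈ S.I, i % N = g ∧ μ.SAcc S lam (u.drop (lam + i)) := by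
    intro f hf h
    have h0 := μ.sep' h hF (by omega)
    by_cases hc : f + N < lam + S.a
    · obtain ⟨i, h1, h2, h3⟩ : ∃ i, i < S.a ∧ S.a ≤ i + N ∧ i % N = g := by
        have h4 : (S.a - N + (g + N - (S.a - N) % N) % N) % N = g := by
          have h5 : (S.a - N) % N < N := Nat.mod_lt _ (by omega)
          rw [Nat.add_mod_mod]
          have h6 := Nat.div_add_mod (S.a - N) N
          have : S.a - N + (g + N - (S.a - N) % N) = g + N * ((S.a - N) / N + 1) := by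
            rw [mul_add, mul_one]
            omega
          rw [this, Nat.add_mul_mod_self_left, Nat.mod_eq_of_lt hg]
        have h5 : (g + N - (S.a - N) % N) % N < N := Nat.mod_lt _ (by omega)
        exact ⟨_, by omega, by omega, h4⟩
      refine ⟨i, S.high i h1 h2, h3, Or.inl ⟨μ.rd_drop hu (by omega) fun i' h4 h5 h6 => ?_,
        Or.inl (by simp; omega)⟩⟩
      have := μ.sep' h h6 (by omega)
      omega
    · obtain ⟨i, hi, h1, h2, -, h3⟩ := S.mid (f + N - (lam + S.a)) (by omega) g hg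
      refine ⟨i, hi, h1, Or.inr (Or.inl ⟨_, h3, by omega, μ.two_drop hu ?_ (by omega) (by omega)⟩)⟩
      rwa [show lam + i + (S.a - N + (f + N - (lam + S.a)) - i) = f by omega]
  rcases he with ⟨f, hf, h⟩ | h | ⟨f, hf, h, hlong⟩
  · exact early f hf h
  · have h0 : lam + 4 * S.a ≤ u.length - μ.R := by
      by_contra hc
      exact h _ (by omega) hF
    by_cases hc : lam + 4 * S.a + N ≤ u.length - μ.R
    · exact ⟨g, S.low g hg, Nat.mod_eq_of_lt hg, Or.inl ⟨μ.rd_drop hu (by omega)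
        fun i h3 h4 => h i (by omega), Or.inl (by simp; omega)⟩⟩
    · obtain ⟨i, hi, h1, h2, h3, -⟩ :=
        S.mid (u.length - μ.R - (lam + 4 * S.a)) (by omega) g hg
      exact ⟨i, hi, h1, Or.inl ⟨μ.rd_drop hu (by omega) fun i h3 h4 => h i (by omega),
        Or.inr ⟨_, h3, by omega, by simp; omega⟩⟩⟩
  · by_cases hc : f < lam + S.a
    · exact early f hc h
    · obtain ⟨j, rfl⟩ := Nat.exists_eq_add_of_le (show lam + g ≤ f by omega)
      exact ⟨g, S.low g hg, Nat.mod_eq_of_lt hg, Or.inr (Or.inr ⟨j, by omega,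
        μ.two_drop hu h hf (by omega), by simp; omega⟩)⟩

theorem f1_sacc [Finite α] (lam : ℕ) : F1 (μ.SAcc S lam) := by
  have hJ : S.J.Finite := (Set.finite_lt_nat _).subset S.J_lt
  refine F1.or ((μ.f1_rd 0).and (F1.or (geo_len_ge _) (F1.exSet hJ fun j _ =>
    (F1.const _).and (geo_len_eq _)))) (F1.or (F1.exSet hJ fun j _ =>
      (F1.const _).and (μ.f1_two j)) ?_)
  exact F1.exSet (Set.finite_le_nat (2 * S.a)) fun j _ => (μ.f1_two j).and (geo_len_ge _)

theorem thin_sacc (lam : ℕ) : Thin (μ.SAcc S lam) := by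
  refine (μ.per (2 * S.a + 1)).mono ?_
  rintro w (⟨h, -⟩ | ⟨j, -, hj, h⟩ | ⟨j, hj, h, -⟩)
  · exact μ.rd_thin (Nat.zero_le _) w h
  · exact μ.rd_thin (by omega) w h.2.2
  · exact μ.rd_thin (by omega) w h.2.2

end Marker
end Vale.Agent.P329
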