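import Vale.Agent.P329.Defs

/-! Existence of the instants.  Plan: `K = N*N`, `y k = 3 * (2^k - 1)`, `a = N * (y (K+1) + 1)`,
`x t g = N * y (1 + t*N + g) + g` for `t, g < N`,
`I = [0,N) ∪ {x t g} ∪ [a-N, a)`, `J = {4a + t - x t g} ∪ {a - N + t - x t g}`.
Every `i ∈ I` is `N * y l + o` with `o < N`, and if `1 ≤ l ≤ K` then `i` is the `x t g` of that block.
`uniq`: the mixed case is impossible by size.  Otherwise `i - x + t = i' - x' + t'`, hence
`N * (y l - y k - y l' + y k')` lies in `(-3N, 3N)` and is a multiple of `3N`, so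
`2^l + 2^k' = 2^l' + 2^k`, so `(l = k ∧ l' = k') ∨ (l = l' ∧ k = k')`; the first case contradicts
the range condition, the second gives `i = i'`. -/

namespace Vale.Agent.P329

theorem instl_lt {a b c d : ℕ} (hab : a ≤ b) (hbd : b < d) : 2 ^ a + 2 ^ b < 2 ^ c + 2 ^ d := by
  have h1 : 2 ^ a ≤ 2 ^ b := Nat.pow_le_pow_right (by norm_num) hab
  have h2 : 2 ^ (b + 1) ≤ 2 ^ d := Nat.pow_le_pow_right (by norm_num) hbd
  have h3 : 0 < 2 ^ c := by positivity
  rw [pow_succ] at h2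
  omega

theorem instl_sorted {a b c d : ℕ} (hab : a ≤ b) (hcd : c ≤ d)
    (h : 2 ^ a + 2 ^ b = 2 ^ c + 2 ^ d) : a = c ∧ b = d := by
  rcases lt_trichotomy b d with h1 | h1 | h1
  · exact absurd h (instl_lt hab h1).ne
  · subst h1
    exact ⟨Nat.pow_right_injective le_rfl (Nat.add_right_cancel h), rfl⟩
  · exact absurd h (instl_lt hcd h1).ne'

theorem instl_sidon {a b c d : ℕ} (h : 2 ^ a - 1 + (2 ^ b - 1) = 2 ^ c - 1 + (2 ^ d - 1)) :
    (a = c ∧ b = d) ∨ (a = d ∧ b = c) := by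
  have h0 : 2 ^ a + 2 ^ b = 2 ^ c + 2 ^ d := by
    have : 0 < 2 ^ a := by positivity
    have : 0 < 2 ^ b := by positivity
    have : 0 < 2 ^ c := by positivity
    have : 0 < 2 ^ d := by positivity
    omega
  rcases le_total a b with h1 | h1 <;> rcases le_total c d with h2 | h2
  · exact Or.inl (instl_sorted h1 h2 h0)
  · exact Or.inr (instl_sorted h1 h2 (by omega))
  · exact Or.inr (instl_sorted h1 h2 (by omega)).symm
  · exact Or.inl (instl_sorted h1 h2 (by omega)).symm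

theorem instl_divmod {n p q r s : ℕ} (hr : r < n) (hs : s < n) (h : n * p + r = n * q + s) :
    p = q ∧ r = s := by
  have h1 : r = s := by
    have := congrArg (· % n) h
    simpa [Nat.mod_eq_of_lt hr, Nat.mod_eq_of_lt hs] using this
  subst h1
  exact ⟨Nat.eq_of_mul_eq_mul_left (by omega) (Nat.add_right_cancel h), rfl⟩

theorem instl_aux (N : ℕ) (hN : 0 < N) (z : ℕ → ℕ) (z0 : z 0 = 0) (zm : Monotone z)
    (zlt : ∀ l, l ≤ N * N → z l < z (N * N + 1))
    (zs : ∀ a b c d, z a + z b = z c + z d → (a = c ∧ b = d) ∨ (a = d ∧ b = c)) :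
    Nonempty (Inst N) := by
  obtain ⟨b, hb⟩ : ∃ b, b = 3 * N * z (N * N + 1) := ⟨_, rfl⟩
  have hk : ∀ t < N, ∀ g < N, 1 + N * t + g ≤ N * N := fun t ht g hg => by nlinarith
  have hx : ∀ t < N, ∀ g < N, 3 * N * z (1 + N * t + g) + 3 * N ≤ b := fun t ht g hg => by
    rw [hb, ← Nat.mul_succ]
    exact Nat.mul_le_mul_left _ (zlt _ (hk t ht g hg))
  have hI : ∀ l o, o < N → (l = 0 ∨ l = N * N + 1 ∨ ∃ t < N, l = 1 + N * t + o) →
      3 * N * z l ≤ b := by
    rintro l o ho (rfl | rfl | ⟨t, ht, rfl⟩)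
    · simp [z0]
    · exact hb.ge
    · have := hx t ht o ho
      omega
  refine ⟨{
    a := b + N
    I := {i | ∃ l o, o < N ∧ i = 3 * N * z l + o ∧
      (l = 0 ∨ l = N * N + 1 ∨ ∃ t < N, l = 1 + N * t + o)}
    J := {j | ∃ t < N, ∃ g < N, j + (3 * N * z (1 + N * t + g) + g) = 4 * (b + N) + t ∨
      j + (3 * N * z (1 + N * t + g) + g) = b + t}
    N_le := by omega
    I_lt := ?_
    J_rng := ?_
    J_lt := ?_
    low := fun i hi => ⟨0, i, hi, by simp [z0], Or.inl rfl⟩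
    high := fun i h1 h2 => ⟨N * N + 1, i - b, by omega, by omega, Or.inr (Or.inl rfl)⟩
    mid := fun t ht g hg => ?_
    uniq := ?_ }⟩
  · rintro i ⟨l, o, ho, rfl, h⟩
    have := hI l o ho h
    omega
  · rintro j ⟨t, ht, g, hg, h⟩
    have := hx t ht g hg
    omega
  · rintro j ⟨t, ht, g, hg, h⟩
    omega
  · have := hx t ht g hg
    refine ⟨3 * N * z (1 + N * t + g) + g, ⟨_, g, hg, rfl, Or.inr (Or.inr ⟨t, ht, rfl⟩)⟩, ?_,
      by omega, ⟨t, ht, g, hg, Or.inl (by omega)⟩, ⟨t, ht, g, hg, Or.inr (by omega)⟩⟩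
    rw [mul_comm 3 N, mul_assoc, Nat.mul_add_mod, Nat.mod_eq_of_lt hg]
  · rintro i ⟨l, o, ho, rfl, hl⟩ i' ⟨l', o', ho', rfl, hl'⟩ j ⟨t, ht, g, hg, hj⟩
      j' ⟨t', ht', g', hg', hj'⟩ h h1 h2
    have e1 := hI l o ho hl
    have e2 := hI l' o' ho' hl'
    have e3 := hx t ht g hg
    have e4 := hx t' ht' g' hg'
    have e5 : 3 * N * (z l + z (1 + N * t' + g')) + (o + t + g')
        = 3 * N * (z l' + z (1 + N * t + g)) + (o' + t' + g) := by
      rw [mul_add, mul_add]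
      omega
    obtain ⟨e6, e7⟩ := instl_divmod (by omega) (by omega) e5
    rcases zs _ _ _ _ e6 with ⟨rfl, e8⟩ | ⟨rfl, -⟩
    · obtain ⟨rfl, rfl⟩ := instl_divmod hg' hg (show N * t' + g' = N * t + g by omega)
      omega
    · have e9 := hk t ht g hg
      rcases hl with e8 | e8 | ⟨s, hs, e8⟩
      · omega
      · omega
      · obtain ⟨rfl, rfl⟩ := instl_divmod hg ho (show N * t + g = N * s + o by omega)
        omega

theorem exists_inst (N : ℕ) (hN : 0 < N) : Nonempty (Inst N) := by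
  refine instl_aux N hN (fun l => 2 ^ l - 1) rfl (fun a b h => ?_) (fun l h => ?_)
    fun a b c d h => instl_sidon h
  · exact Nat.sub_le_sub_right (Nat.pow_le_pow_right (by norm_num) h) 1
  · have h1 : 2 ^ l < 2 ^ (N * N + 1) := Nat.pow_lt_pow_right (by norm_num) (by omega)
    have h2 : 0 < 2 ^ l := by positivity
    omega

end Vale.Agent.P329
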