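import Vale.Agent.P329.Defs

/-! Existence of markers.  Plan: wlog work with `s' = s + 1 > 0`, `q = s'!` (every `0 < d < s'` divides `q`).
For `f : ℕ → Option α` (use `f = fun i => v[i]?`) let `key f i : Fin (q+1) → Option α := fun t => f (i+t)`,
`rank` an injection of keys into `Fin T` (`Finite.equivFin`), `elig f i := f i ≠ f (i+q)`.
If `key f i = key f (i+d)` with `0 < d < s'` then `f i = f (i+d) = ... = f (i+q)`, so `i` is not eligible.
Levels: `mk 0 f i = False`,
`mk (t+1) f i = mk t f i ∨ (rank (key f i) = t ∧ elig f i ∧ ∀ j, j < i + s' → i < j + s' → ¬ mk t f j)`.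
Separation: induction on `t`.  Coverage: an eligible `i` has some `j` with `|i-j| < s'` and `mk T f j`.
Locality: if `t*s' ≤ i`, `t*s' ≤ i'` and `f (i - t*s' + d) = g (i' - t*s' + d)` for all `d ≤ 2*t*s' + q`
then `mk t f i ↔ mk t g i'` (induction on `t`).
Put `ρ = T*s'`, `R = 2ρ+q+1`, `Mk v := R ≤ v.length ∧ mk T (v[·]?) ρ`; by locality
`Mk (v.drop d) ↔ d + R ≤ v.length ∧ mk T (v[·]?) (ρ+d)`.  For `per t` take `B = t + ρ + s' + R`. -/

namespace Vale.Agent.P329

/-- the marks of level below `t` -/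
def mkL {β : Type} {q : ℕ} (rk : (Fin (q + 1) → β) → ℕ) (s : ℕ) : ℕ → (ℕ → β) → ℕ → Prop
  | 0, _, _ => False
  | t + 1, f, i => mkL rk s t f i ∨ ((rk fun τ => f (i + τ)) = t ∧ f i ≠ f (i + q) ∧
      ∀ j, j < i + s → i < j + s → ¬ mkL rk s t f j)

section

variable {β : Type} {q s : ℕ} {rk : (Fin (q + 1) → β) → ℕ} {f : ℕ → β} {i d : ℕ}

theorem mkL_per (hd : d ∣ q)
    (h : (fun τ : Fin (q + 1) => f (i + τ)) = fun τ : Fin (q + 1) => f (i + d + τ)) :
    f i = f (i + q) := by
  obtain ⟨m, hm⟩ := hd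
  have key : ∀ k ≤ m, f i = f (i + d * k) := by
    intro k hk
    induction k with
    | zero => rfl
    | succ k ih =>
      have h1 : d * k ≤ d * m := Nat.mul_le_mul_left d (by omega)
      have h2 : f (i + d * k) = f (i + d + d * k) := congrFun h ⟨d * k, by omega⟩
      rw [ih (by omega), h2, mul_add, mul_one, add_assoc, add_comm d]
  rw [hm]
  exact key m le_rfl

theorem mkL_sep (hinj : Function.Injective rk) (hdvd : ∀ d, 0 < d → d < s → d ∣ q) (h0 : 0 < d)
    (h1 : d < s) (t : ℕ) (ha : mkL rk s t f i) (hb : mkL rk s t f (i + d)) : False := by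
  induction t with
  | zero => exact ha
  | succ t ih =>
    rcases ha with ha | ha <;> rcases hb with hb | hb
    · exact ih ha hb
    · exact hb.2.2 i (by omega) (by omega) ha
    · exact ha.2.2 (i + d) (by omega) (by omega) hb
    · exact ha.2.1 (mkL_per (hdvd d h0 h1) (hinj (ha.1.trans hb.1.symm)))

theorem mkL_mono {t T : ℕ} (h : t ≤ T) (ha : mkL rk s t f i) : mkL rk s T f i := by
  induction h with
  | refl => exact ha
  | step _ ih => exact Or.inl ih

theorem mkL_cover (hs : 0 < s) {T : ℕ} (hT : (rk fun τ => f (i + τ)) < T) (h : f i ≠ f (i + q)) :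
    ∃ j, j < i + s ∧ i < j + s ∧ mkL rk s T f j := by
  by_contra hc
  refine hc ⟨i, by omega, by omega, mkL_mono hT (Or.inr ⟨rfl, h, fun j h1 h2 h3 => ?_⟩)⟩
  exact hc ⟨j, h1, h2, mkL_mono hT.le h3⟩

theorem mkL_loc1 (t : ℕ) : ∀ (f g : ℕ → β) (a b : ℕ),
    (∀ d ≤ 2 * t * s + q, f (a + d) = g (b + d)) →
      mkL rk s t f (a + t * s) → mkL rk s t g (b + t * s) := by
  induction t with
  | zero => exact fun _ _ _ _ _ h => h
  | succ t ih =>
    intro f g a b H h
    have e1 : (t + 1) * s = s + t * s := by ring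
    have e2 : 2 * (t + 1) * s = 2 * t * s + 2 * s := by ring
    have e3 : 2 * t * s = 2 * (t * s) := by ring
    have H' : ∀ e ≤ 2 * s, ∀ d ≤ 2 * t * s + q, f (a + e + d) = g (b + e + d) :=
      fun e he d hd => by rw [add_assoc, add_assoc]; exact H _ (by omega)
    have H1 : ∀ τ ≤ q, f (a + (t + 1) * s + τ) = g (b + (t + 1) * s + τ) := fun τ hτ => by
      rw [add_assoc, add_assoc]; exact H _ (by omega)
    rcases h with h | ⟨h1, h2, h3⟩
    · left
      rw [e1, ← add_assoc] at h ⊢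
      exact ih f g _ _ (H' s (by omega)) h
    · refine Or.inr ⟨?_, ?_, fun j k1 k2 k3 => ?_⟩
      · exact (congrArg rk (funext fun τ => (H1 τ (Nat.lt_succ_iff.1 τ.2)).symm)).trans h1
      · rw [← H1 q le_rfl]
        exact fun e => h2 ((H1 0 (Nat.zero_le q)).trans e)
      · obtain ⟨e, rfl⟩ : ∃ e, j = b + e + t * s := ⟨j - b - t * s, by omega⟩
        exact h3 (a + e + t * s) (by omega) (by omega)
          (ih g f _ _ (fun d hd => (H' e (by omega) d hd).symm) k3)

theorem mkL_loc (t : ℕ) (f g : ℕ → β) (a b : ℕ) (H : ∀ d ≤ 2 * t * s + q, f (a + d) = g (b + d)) :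
    mkL rk s t f (a + t * s) ↔ mkL rk s t g (b + t * s) :=
  ⟨mkL_loc1 t f g a b H, mkL_loc1 t g f b a fun d hd => (H d hd).symm⟩

end

theorem exists_marker (α : Type) [Finite α] (s : ℕ) : Nonempty (Marker α s) := by
  obtain ⟨T, ⟨e⟩⟩ := Finite.exists_equiv_fin (Fin ((s + 1).factorial + 1) → Option α)
  set q := (s + 1).factorial with hq
  set rk : (Fin (q + 1) → Option α) → ℕ := fun k => e k with hrk
  have hinj : Function.Injective rk := fun a b h => e.injective (Fin.ext h)
  have hdvd : ∀ d, 0 < d → d < s + 1 → d ∣ q := fun d h1 h2 => Nat.dvd_factorial h1 h2.le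
  have hdrop : ∀ (v : List α) (d : ℕ), mkL rk (s + 1) T (fun i => (v.drop d)[i]?) (0 + T * (s + 1)) ↔
      mkL rk (s + 1) T (fun i => v[i]?) (d + T * (s + 1)) := fun v d =>
    mkL_loc T _ _ 0 d fun j _ => by rw [List.getElem?_drop, zero_add]
  refine ⟨{
    R := 2 * T * (s + 1) + q + 1
    Mk := fun v => 2 * T * (s + 1) + q + 1 ≤ v.length ∧
      mkL rk (s + 1) T (fun i => v[i]?) (0 + T * (s + 1))
    R_pos := Nat.succ_pos _
    len := fun _ h => h.1
    loc := fun v t h => ?_
    sep := fun v d h h1 h2 h3 => ?_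
    per := fun t => ⟨t + T * (s + 1) + (s + 1) + (2 * T * (s + 1) + q + 1), q,
      Nat.factorial_pos _, fun w hw j h1 h2 => ?_⟩ }⟩
  · refine and_congr (iff_of_true (by rw [List.length_append]; omega) h) ?_
    exact mkL_loc T _ _ 0 0 fun j hj => List.getElem?_append_left (by omega)
  · refine mkL_sep hinj hdvd h1 (by omega : d < s + 1) T h.2 ?_
    have := (hdrop v d).1 h3.2
    rwa [zero_add, add_comm _ d]
  · by_contra hc
    obtain ⟨j', k1, k2, k3⟩ := mkL_cover (rk := rk) (Nat.succ_pos s) (f := fun i => w[i]?) (i := j)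
      (T := T) (e _).2 hc
    refine hw (j' - T * (s + 1)) (by omega) (by omega) ⟨by rw [List.length_drop]; omega, ?_⟩
    rw [hdrop, Nat.sub_add_cancel (by omega)]
    exact k3

end Vale.Agent.P329
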