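import Vale.Agent.P329.Clos

/-! Substitution of a code family into languages over the summary alphabet.
`F1.sub`: induction on the derivation of `F1 K`.  Finite `K`: finite union of products, height 1
(`H.subst`).  Star of a finite `K`: `Sub Lt (Star K) = Star (Sub Lt K)`, height 2.  Complement:
`Sub Lt (¬K) = Star (∃ γ, Lt γ ·) ∧ ¬ Sub Lt K` by `subst_unique`.  Concatenation: `subst_append`. -/

namespace Vale.Agent.P329

variable {α Γ X M : Type}

theorem subst_nil (Lt : Γ → List α → Prop) (w : List α) : subst Lt [] w ↔ w = [] := by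
  constructor
  · rintro ⟨ws, h, rfl⟩
    cases h
    rfl
  · rintro rfl
    exact ⟨[], List.Forall₂.nil, rfl⟩

theorem subst_cons (Lt : Γ → List α → Prop) (γ : Γ) (γs : List Γ) (w : List α) :
    subst Lt (γ :: γs) w ↔ Cat (Lt γ) (subst Lt γs) w := by
  constructor
  · rintro ⟨ws, h, rfl⟩
    cases h with
    | cons h1 h2 => exact ⟨_, _, h1, ⟨_, h2, rfl⟩, by simp⟩
  · rintro ⟨a, b, ha, ⟨ws, h, rfl⟩, rfl⟩
    exact ⟨a :: ws, List.Forall₂.cons ha h, by simp⟩

theorem subst_append (Lt : Γ → List α → Prop) (γs δs : List Γ) (w : List α) :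
    subst Lt (γs ++ δs) w ↔ Cat (subst Lt γs) (subst Lt δs) w := by
  induction γs generalizing w with
  | nil =>
    constructor
    · exact fun h => ⟨[], w, (subst_nil _ _).2 rfl, h, rfl⟩
    · rintro ⟨a, b, ha, hb, rfl⟩
      rw [subst_nil] at ha
      subst ha
      exact hb
  | cons γ γs ih =>
    rw [List.cons_append, subst_cons]
    constructor
    · rintro ⟨a, b, ha, hb, rfl⟩
      obtain ⟨c, d, hc, hd, rfl⟩ := (ih b).1 hb
      exact ⟨a ++ c, d, (subst_cons _ _ _ _).2 ⟨a, c, ha, hc, rfl⟩, hd, by simp⟩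
    · rintro ⟨a, d, ha, hd, rfl⟩
      obtain ⟨b, c, hb, hc, rfl⟩ := (subst_cons _ _ _ _).1 ha
      exact ⟨b, c ++ d, hb, (ih _).2 ⟨c, d, hc, hd, rfl⟩, by simp⟩

/-- comparable words have comparable parses -/
theorem subst_cmp {Lt : Γ → List α → Prop} (hc : FCode Lt) {γs δs : List Γ} {u u' r r' : List α}
    (h : subst Lt γs u) (h' : subst Lt δs u') (e : u ++ r = u' ++ r') :
    ∃ ρ ρ' : List Γ, γs ++ ρ = δs ++ ρ' := by
  induction γs generalizing δs u u' with
  | nil => exact ⟨δs, [], by simp⟩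
  | cons γ γs ih =>
    cases δs with
    | nil => exact ⟨[], γ :: γs, by simp⟩
    | cons δ δs =>
      obtain ⟨a, b, ha, hb, rfl⟩ := (subst_cons _ _ _ _).1 h
      obtain ⟨c, d, hc', hd, rfl⟩ := (subst_cons _ _ _ _).1 h'
      rw [List.append_assoc, List.append_assoc] at e
      obtain ⟨rfl, rfl⟩ := hc.2 _ _ _ _ _ _ ha hc' e
      obtain ⟨ρ, ρ', h3⟩ := ih hb hd (List.append_cancel_left e)
      exact ⟨ρ, ρ', by simp [h3]⟩

theorem subst_unique {Lt : Γ → List α → Prop} (hc : FCode Lt) {γs δs : List Γ} {u : List α}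
    (h : subst Lt γs u) (h' : subst Lt δs u) : γs = δs := by
  induction γs generalizing δs u with
  | nil =>
    rw [subst_nil] at h
    subst h
    cases δs with
    | nil => rfl
    | cons δ δs =>
      obtain ⟨c, d, hc', -, e⟩ := (subst_cons _ _ _ _).1 h'
      obtain ⟨rfl, -⟩ := List.append_eq_nil_iff.1 e.symm
      exact (hc.1 _ hc').elim
  | cons γ γs ih =>
    obtain ⟨a, b, ha, hb, rfl⟩ := (subst_cons _ _ _ _).1 h
    cases δs with
    | nil =>
      rw [subst_nil] at h'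
      obtain ⟨rfl, -⟩ := List.append_eq_nil_iff.1 h'
      exact (hc.1 _ ha).elim
    | cons δ δs =>
      obtain ⟨c, d, hc', hd, e⟩ := (subst_cons _ _ _ _).1 h'
      obtain ⟨rfl, rfl⟩ := hc.2 _ _ _ _ _ _ ha hc' e
      obtain rfl := List.append_cancel_left e
      rw [ih hb hd]

/-- same parse and comparable words: equal words -/
theorem subst_eq {Lt : Γ → List α → Prop} (hc : FCode Lt) {γs : List Γ} {u u' r r' : List α}
    (h : subst Lt γs u) (h' : subst Lt γs u') (e : u ++ r = u' ++ r') : u = u' := by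
  induction γs generalizing u u' with
  | nil =>
    rw [subst_nil] at h h'
    rw [h, h']
  | cons γ γs ih =>
    obtain ⟨a, b, ha, hb, rfl⟩ := (subst_cons _ _ _ _).1 h
    obtain ⟨c, d, hc', hd, rfl⟩ := (subst_cons _ _ _ _).1 h'
    rw [List.append_assoc, List.append_assoc] at e
    obtain ⟨rfl, -⟩ := hc.2 _ _ _ _ _ _ ha hc' e
    rw [ih hb hd (List.append_cancel_left e)]

theorem PCode.sub {Lt : Γ → List α → Prop} (hc : FCode Lt) {K : List Γ → Prop} (hK : PCode K) :
    PCode (Sub Lt K) := by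
  constructor
  · rintro ⟨γs, h1, h2⟩
    rw [subst_unique hc h2 ((subst_nil _ _).2 rfl)] at h1
    exact hK.1 h1
  · rintro u u' r r' ⟨γs, h1, h2⟩ ⟨δs, h3, h4⟩ e
    obtain ⟨ρ, ρ', h5⟩ := subst_cmp hc h2 h4 e
    obtain rfl := hK.2 _ _ _ _ h1 h3 h5
    exact subst_eq hc h2 h4 e

theorem val_subst [Monoid M] (φ : α → M) (g : Γ → M) {Lt : Γ → List α → Prop}
    (hv : ∀ γ u, Lt γ u → val φ u = g γ) {γs : List Γ} {u : List α} (h : subst Lt γs u) :
    val φ u = val g γs := by
  induction γs generalizing u with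
  | nil =>
    rw [subst_nil] at h
    simp [h]
  | cons γ γs ih =>
    obtain ⟨a, b, ha, hb, rfl⟩ := (subst_cons _ _ _ _).1 h
    rw [val_append, val_cons, hv _ _ ha, ih hb]

theorem H.subst {k : ℕ} {Lt : Γ → List α → Prop} (hL : ∀ γ, H k (Lt γ)) (γs : List Γ) :
    H k (subst Lt γs) := by
  induction γs with
  | nil => exact (H.word k []).congr fun w => (subst_nil _ _).symm
  | cons γ γs ih => exact ((hL γ).cat ih).congr fun w => (subst_cons _ _ _ _).symm

theorem sub_star_su (Lt : Γ → List α → Prop) (K : List Γ → Prop) (w : List α) :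
    Sub Lt (Star K) w ↔ Star (Sub Lt K) w := by
  constructor
  · rintro ⟨_, ⟨Gs, h1, rfl⟩, h3⟩
    induction Gs generalizing w with
    | nil =>
      rw [List.flatten_nil, subst_nil] at h3
      exact ⟨[], by simp, by simp [h3]⟩
    | cons γs Gs ih =>
      rw [List.flatten_cons, subst_append] at h3
      obtain ⟨a, b, ha, hb, rfl⟩ := h3
      obtain ⟨us, h4, rfl⟩ := ih _ (fun v hv => h1 v (List.mem_cons_of_mem _ hv)) hb
      refine ⟨a :: us, ?_, by simp⟩
      intro v hv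
      rcases List.mem_cons.1 hv with rfl | hv
      · exact ⟨γs, h1 _ List.mem_cons_self, ha⟩
      · exact h4 v hv
  · rintro ⟨us, h1, rfl⟩
    induction us with
    | nil => exact ⟨[], ⟨[], by simp, rfl⟩, (subst_nil _ _).2 rfl⟩
    | cons u us ih =>
      obtain ⟨γs, h3, h4⟩ := h1 u List.mem_cons_self
      obtain ⟨_, ⟨Gs, h5, rfl⟩, h7⟩ := ih (fun v hv => h1 v (List.mem_cons_of_mem _ hv))
      refine ⟨γs ++ Gs.flatten, ⟨γs :: Gs, ?_, by simp⟩,
        (subst_append _ _ _ _).2 ⟨_, _, h4, h7, by simp⟩⟩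
      intro v hv
      rcases List.mem_cons.1 hv with rfl | hv
      · exact h3
      · exact h5 v hv

theorem star_ex_su (Lt : Γ → List α → Prop) (w : List α) :
    Star (fun u => ∃ γ, Lt γ u) w ↔ ∃ γs, subst Lt γs w := by
  constructor
  · rintro ⟨us, h1, rfl⟩
    induction us with
    | nil => exact ⟨[], (subst_nil _ _).2 rfl⟩
    | cons u us ih =>
      obtain ⟨γ, h3⟩ := h1 u List.mem_cons_self
      obtain ⟨γs, h4⟩ := ih (fun v hv => h1 v (List.mem_cons_of_mem _ hv))
      exact ⟨γ :: γs, (subst_cons _ _ _ _).2 ⟨_, _, h3, h4, by simp⟩⟩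
  · rintro ⟨γs, h⟩
    induction γs generalizing w with
    | nil => exact ⟨[], by simp, by simpa [subst_nil] using h⟩
    | cons γ γs ih =>
      obtain ⟨a, b, ha, hb, rfl⟩ := (subst_cons _ _ _ _).1 h
      obtain ⟨us, h4, rfl⟩ := ih _ hb
      refine ⟨a :: us, ?_, by simp⟩
      intro v hv
      rcases List.mem_cons.1 hv with rfl | hv
      · exact ⟨γ, ha⟩
      · exact h4 v hv

theorem F1.sub [Finite Γ] {Lt : Γ → List α → Prop} (hc : FCode Lt) (hL : ∀ γ, H 1 (Lt γ))
    {K : List Γ → Prop} (hK : F1 K) : H 2 (Sub Lt K) := by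
  have hfin : ∀ {K : List Γ → Prop}, {w | K w}.Finite → H 1 (Sub Lt K) := fun hK =>
    (H.exSet hK fun γs _ => H.subst hL γs).congr fun w => Iff.rfl
  induction hK with
  | fin h => exact (hfin h).mono (by omega)
  | starfin h => exact (hfin h).star.congr fun w => (sub_star_su Lt _ w).symm
  | or _ _ h1 h2 =>
    refine (h1.or h2).congr fun w => ⟨?_, ?_⟩
    · rintro (⟨γs, h, h'⟩ | ⟨γs, h, h'⟩)
      · exact ⟨γs, Or.inl h, h'⟩
      · exact ⟨γs, Or.inr h, h'⟩
    · rintro ⟨γs, h | h, h'⟩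
      · exact Or.inl ⟨γs, h, h'⟩
      · exact Or.inr ⟨γs, h, h'⟩
  | not _ h1 =>
    refine ((H.ex hL).star.and h1.not).congr fun w => ⟨?_, ?_⟩
    · rintro ⟨h, h'⟩
      obtain ⟨γs, h2⟩ := (star_ex_su Lt w).1 h
      exact ⟨γs, fun h3 => h' ⟨γs, h3, h2⟩, h2⟩
    · rintro ⟨γs, h, h'⟩
      refine ⟨(star_ex_su Lt w).2 ⟨γs, h'⟩, ?_⟩
      rintro ⟨δs, h2, h3⟩
      exact h (subst_unique hc h3 h' ▸ h2)
  | cat _ _ h1 h2 =>
    refine (h1.cat h2).congr fun w => ⟨?_, ?_⟩
    · rintro ⟨a, b, ⟨γs, h3, h4⟩, ⟨δs, h5, h6⟩, rfl⟩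
      exact ⟨γs ++ δs, ⟨γs, δs, h3, h5, rfl⟩, (subst_append _ _ _ _).2 ⟨a, b, h4, h6, rfl⟩⟩
    · rintro ⟨_, ⟨γs, δs, h3, h5, rfl⟩, h⟩
      obtain ⟨a, b, h4, h6, rfl⟩ := (subst_append _ _ _ _).1 h
      exact ⟨a, b, ⟨γs, h3, h4⟩, ⟨δs, h5, h6⟩, rfl⟩

open Classical in
/-- the action of a word that has a parse -/
noncomputable def lift (Lt : Γ → List α → Prop) (π : List Γ → X → X) (u : List α) : X → X :=
  if h : ∃ γs, subst Lt γs u then π h.choose else id

theorem lift_eq {Lt : Γ → List α → Prop} (hc : FCode Lt) (π : List Γ → X → X) {γs : List Γ}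
    {u : List α} (h : subst Lt γs u) : lift Lt π u = π γs := by
  have h1 : ∃ γs, subst Lt γs u := ⟨γs, h⟩
  rw [lift, dif_pos h1, subst_unique hc h1.choose_spec h]

/-- runs of substituted units are substituted runs (induction on the list of units) -/
theorem runL_sub {Lt : Γ → List α → Prop} (hc : FCode Lt) (K : List Γ → Prop)
    (π : List Γ → X → X) (x y : X) (w : List α) :
    RunL (Sub Lt K) (lift Lt π) x y w ↔ Sub Lt (RunL K π x y) w := by
  constructor
  · rintro ⟨us, h1, rfl, h2⟩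
    induction us generalizing x with
    | nil => exact ⟨[], ⟨[], by simp, rfl, h2⟩, (subst_nil _ _).2 rfl⟩
    | cons u us ih =>
      obtain ⟨γs, h3, h4⟩ := h1 u List.mem_cons_self
      rw [run_cons, lift_eq hc π h4] at h2
      obtain ⟨_, ⟨Gs, h5, rfl, h6⟩, h7⟩ := ih _ (fun v hv => h1 v (List.mem_cons_of_mem _ hv)) h2
      refine ⟨γs ++ Gs.flatten, ⟨γs :: Gs, ?_, by simp, by rwa [run_cons]⟩,
        (subst_append _ _ _ _).2 ⟨_, _, h4, h7, by simp⟩⟩
      intro v hv
      rcases List.mem_cons.1 hv with rfl | hv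
      · exact h3
      · exact h5 v hv
  · rintro ⟨_, ⟨Gs, h1, rfl, h2⟩, h3⟩
    induction Gs generalizing x w with
    | nil =>
      rw [List.flatten_nil, subst_nil] at h3
      exact ⟨[], by simp, by simp [h3], h2⟩
    | cons γs Gs ih =>
      rw [List.flatten_cons, subst_append] at h3
      obtain ⟨a, b, ha, hb, rfl⟩ := h3
      rw [run_cons] at h2
      obtain ⟨us, h4, rfl, h5⟩ := ih _ _ (fun v hv => h1 v (List.mem_cons_of_mem _ hv)) h2 hb
      refine ⟨a :: us, ?_, by simp, by rwa [run_cons, lift_eq hc π ha]⟩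
      intro v hv
      rcases List.mem_cons.1 hv with rfl | hv
      · exact ⟨γs, h1 _ List.mem_cons_self, ha⟩
      · exact h4 v hv

end Vale.Agent.P329
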