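import Vale.Agent.P329.Geo
import Vale.Agent.P329.Chain
import Vale.Agent.P329.Subst

/-! The small layer, part A: states and letters. -/

namespace Vale.Agent.P329

variable {α M : Type} [Monoid M]

/-- parameters of the small layer -/
structure SD (α : Type) (C : TC M) where
  N : ℕ
  code : ℕ → V M × M
  hcode : ∀ k w, ∃ g < N, ∀ i : ℕ, i % N = g → code i = k ∧ (i : C.W) = w
  S : Inst N
  lam : ℕ
  s : ℕ
  μ : Marker α s
  hs : lam + 5 * S.a ≤ s

abbrev St (C : TC M) : Type := M × M × C.W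

open Classical in
noncomputable def actF (C : TC M) (code : ℕ → V M × M) (lam : ℕ) (ev : Prop) (coin : ℕ → Prop)
    (g : M) (len : ℕ) (st : St C) : St C :=
  if ev then (st.1 * (st.2.1 * g), 1, C.v * (st.2.2 + len + C.c (st.2.1 * g)))
  else if h : ∃ i, coin i then
    (st.1 * (st.2.1 * g), 1, st.2.2 +
      (C.v * (C.κ (code h.choose) + ((len : C.W) - ((lam + h.choose : ℕ) : C.W)) + C.c (st.2.1 * g))
        - (C.κ (code h.choose) - ((lam + h.choose : ℕ) : C.W))))
  else (st.1, st.2.1 * g, st.2.2 + len)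

def shf {C : TC M} (P : M) (t : C.W) (st : St C) : St C := (P * st.1, st.2.1, st.2.2 + t)

namespace SD
variable {C : TC M} (D : SD α C) (φ : α → M)

noncomputable def act (u : List α) : St C → St C :=
  actF C D.code D.lam (D.μ.Ev D.S D.lam u) (D.μ.Coin D.S D.lam u) (val φ u) u.length

def NE (u : List α) : Prop := D.μ.Rd (D.lam + 2 * D.S.a) u ∧ ¬ D.μ.Ev D.S D.lam u
def EV (u : List α) : Prop := D.μ.Rd (D.lam + 2 * D.S.a) u ∧ D.μ.Ev D.S D.lam u

theorem act_ev {u : List α} (hu : D.μ.Ev D.S D.lam u) (st : St C) :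
    D.act φ u st = (st.1 * (st.2.1 * val φ u), 1,
      C.v * (st.2.2 + u.length + C.c (st.2.1 * val φ u))) := by
  simp [act, actF, hu]

theorem act_pend {u : List α} (hu : ¬ D.μ.Ev D.S D.lam u) (hc : ∀ i, ¬ D.μ.Coin D.S D.lam u i)
    (st : St C) : D.act φ u st = (st.1, st.2.1 * val φ u, st.2.2 + u.length) := by
  have : ¬ ∃ i, D.μ.Coin D.S D.lam u i := fun ⟨i, hi⟩ => hc i hi
  simp only [act, actF, hu, this, if_false, dif_neg, not_false_eq_true]

theorem act_coin {u : List α} (hu : ¬ D.μ.Ev D.S D.lam u) {i : ℕ} (hc : D.μ.Coin D.S D.lam u i)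
    (st : St C) (hst : st.2.2 + ((D.lam + i : ℕ) : C.W) = C.κ (D.code i)) :
    D.act φ u st = (st.1 * (st.2.1 * val φ u), 1,
      C.v * (st.2.2 + u.length + C.c (st.2.1 * val φ u))) := by
  have h : ∃ i, D.μ.Coin D.S D.lam u i := ⟨i, hc⟩
  have e : h.choose = i := D.μ.coin_unique D.S D.hs hu h.choose_spec hc
  simp only [act, actF, hu, if_false, dif_pos h, e, ← hst]
  refine Prod.ext rfl (Prod.ext rfl ?_)
  simp only
  ring

theorem act_shf {u : List α} (hu : ¬ D.μ.Ev D.S D.lam u) (P : M) (t : C.W) (st : St C) :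
    D.act φ u (shf P t st) = shf P t (D.act φ u st) := by
  simp only [act, actF, hu, if_false, shf]
  split_ifs with h
  · refine Prod.ext (by simp [mul_assoc]) (Prod.ext rfl ?_)
    simp only
    ring
  · refine Prod.ext rfl (Prod.ext rfl ?_)
    simp only
    ring

theorem act_val (u : List α) (st : St C) :
    (D.act φ u st).1 * (D.act φ u st).2.1 = st.1 * st.2.1 * val φ u := by
  simp only [act, actF]
  split_ifs <;> simp [mul_assoc]

theorem run_shf (ns : List (List α)) (hn : ∀ u ∈ ns, D.NE u) (P : M) (t : C.W) (st : St C) :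
    run (D.act φ) ns (shf P t st) = shf P t (run (D.act φ) ns st) := by
  induction ns generalizing st with
  | nil => rfl
  | cons u ns ih =>
    rw [run_cons, run_cons, D.act_shf φ (hn u (by simp)).2, ih (fun u hu => hn u (by simp [hu]))]

theorem run_val (ns : List (List α)) (st : St C) :
    (run (D.act φ) ns st).1 * (run (D.act φ) ns st).2.1 = st.1 * st.2.1 * val φ ns.flatten := by
  induction ns generalizing st with
  | nil => simp
  | cons u ns ih => rw [run_cons, ih, act_val, List.flatten_cons, val_append, mul_assoc]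

def Lt (γ : M × C.W) (w : List α) : Prop :=
  ∃ st : St C, Cat (RunL D.NE (D.act φ) (1, 1, 0) st)
    (fun u => D.EV u ∧ D.act φ u st = (γ.1, 1, γ.2)) w

theorem step_of {ns : List (List α)} (hn : ∀ u ∈ ns, D.NE u) {e : List α} (he : D.EV e)
    {γ : M × C.W} (h : D.act φ e (run (D.act φ) ns (1, 1, 0)) = (γ.1, 1, γ.2)) (p : M × C.W) :
    D.act φ e (run (D.act φ) ns (p.1, 1, p.2)) = ((stepG C γ p).1, 1, (stepG C γ p).2) := by
  have e1 : ((p.1, 1, p.2) : St C) = shf p.1 p.2 (1, 1, 0) := by simp [shf]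
  rw [e1, D.run_shf φ ns hn, D.act_ev φ he.2]
  rw [D.act_ev φ he.2] at h
  simp only [Prod.mk.injEq, true_and] at h
  simp only [shf, stepG, ← h.1, ← h.2, mul_assoc]
  refine Prod.ext rfl (Prod.ext rfl ?_)
  simp only
  ring

theorem lt_elim {γ : M × C.W} {l : List α} (h : D.Lt φ γ l) :
    ∃ (ns : List (List α)) (e : List α), (∀ u ∈ ns, D.NE u) ∧ D.EV e ∧ l = ns.flatten ++ e ∧
      ∀ p : M × C.W, D.act φ e (run (D.act φ) ns (p.1, 1, p.2)) =
        ((stepG C γ p).1, 1, (stepG C γ p).2) := by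
  obtain ⟨st, a, e, ⟨ns, hn, rfl, rfl⟩, ⟨he, hst⟩, rfl⟩ := h
  exact ⟨ns, e, hn, he, rfl, D.step_of φ hn he hst⟩

theorem lt_intro {ns : List (List α)} (hn : ∀ u ∈ ns, D.NE u) {e : List α} (he : D.EV e) :
    ∃ γ : M × C.W, D.Lt φ γ (ns.flatten ++ e) ∧
      ∀ p : M × C.W, D.act φ e (run (D.act φ) ns (p.1, 1, p.2)) =
        ((stepG C γ p).1, 1, (stepG C γ p).2) := by
  have h : D.act φ e (run (D.act φ) ns (1, 1, 0)) =
      ((D.act φ e (run (D.act φ) ns (1, 1, 0))).1, 1,
        (D.act φ e (run (D.act φ) ns (1, 1, 0))).2.2) := by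
    rw [D.act_ev φ he.2]
  exact ⟨((D.act φ e (run (D.act φ) ns (1, 1, 0))).1, (D.act φ e (run (D.act φ) ns (1, 1, 0))).2.2),
    ⟨_, _, _, ⟨ns, hn, rfl, rfl⟩, ⟨he, h⟩, rfl⟩, D.step_of φ hn he h⟩

theorem parse_unique (ns ns' : List (List α)) (hn : ∀ u ∈ ns, D.NE u) (hn' : ∀ u ∈ ns', D.NE u)
    {e e' r r' : List α} (he : D.EV e) (he' : D.EV e')
    (h : ns.flatten ++ e ++ r = ns'.flatten ++ e' ++ r') : ns = ns' ∧ e = e' := by
  have hc := (D.μ.rd_code (D.lam + 2 * D.S.a)).2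
  induction ns generalizing ns' with
  | nil =>
    cases ns' with
    | nil => exact ⟨rfl, hc _ _ r r' he.1 he'.1 (by simpa using h)⟩
    | cons u ns' =>
      have hu := hn' u (by simp)
      have := hc e u r (ns'.flatten ++ e' ++ r') he.1 hu.1 (by simpa using h)
      exact absurd (this ▸ he.2) hu.2
  | cons u ns ih =>
    have hu := hn u (by simp)
    cases ns' with
    | nil =>
      have := hc u e' (ns.flatten ++ e ++ r) r' hu.1 he'.1 (by simpa using h)
      exact absurd (this ▸ he'.2) hu.2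
    | cons u' ns' =>
      have hu' := hn' u' (by simp)
      have e1 := hc u u' (ns.flatten ++ e ++ r) (ns'.flatten ++ e' ++ r') hu.1 hu'.1
        (by simpa using h)
      subst e1
      have := ih ns' (fun u hu => hn u (by simp [hu])) (fun u hu => hn' u (by simp [hu]))
        (by simpa using h)
      exact ⟨by rw [this.1], this.2⟩

theorem lt_code : FCode (D.Lt φ) := by
  constructor
  · rintro γ ⟨st, a, e, -, ⟨he, -⟩, h⟩
    have : e = [] := (List.append_eq_nil_iff.1 h.symm).2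
    exact (D.μ.rd_code _).1 (this ▸ he.1)
  · rintro γ γ' u u' r r' ⟨_, _, e, ⟨ns, hn, rfl, rfl⟩, ⟨he, hst⟩, rfl⟩
      ⟨_, _, e', ⟨ns', hn', rfl, rfl⟩, ⟨he', hst'⟩, rfl⟩ h
    obtain ⟨rfl, rfl⟩ := D.parse_unique ns ns' hn hn' he he' h
    rw [hst] at hst'
    simp only [Prod.mk.injEq, true_and] at hst'
    exact ⟨rfl, Prod.ext hst'.1 hst'.2⟩

theorem lt_val {γ : M × C.W} {u : List α} (h : D.Lt φ γ u) : val φ u = γ.1 := by
  obtain ⟨_, _, e, ⟨ns, hn, rfl, rfl⟩, ⟨he, hst⟩, rfl⟩ := h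
  have h1 := D.act_val φ e (run (D.act φ) ns (1, 1, 0))
  rw [D.run_val, hst] at h1
  simpa using h1.symm

theorem group (us : List (List α)) (hu : ∀ u ∈ us, D.μ.Rd (D.lam + 2 * D.S.a) u) :
    ∃ (γs : List (M × C.W)) (w1 : List α) (ns : List (List α)), subst (D.Lt φ) γs w1 ∧
      (∀ u ∈ ns, D.NE u) ∧ us.flatten = w1 ++ ns.flatten := by
  induction us using List.reverseRecOn with
  | nil => exact ⟨[], [], [], (subst_nil _ _).2 rfl, by simp, rfl⟩
  | append_singleton us u ih =>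
    obtain ⟨γs, w1, ns, h1, h2, h3⟩ := ih (fun u h => hu u (by simp [h]))
    have hr := hu u (by simp)
    by_cases he : D.μ.Ev D.S D.lam u
    · obtain ⟨γ, hγ, -⟩ := D.lt_intro φ h2 (e := u) ⟨hr, he⟩
      refine ⟨γs ++ [γ], w1 ++ (ns.flatten ++ u), [], ?_, by simp, by simp [h3]⟩
      exact (subst_append _ _ _ _).2 ⟨_, _, h1,
        (subst_cons _ _ _ _).2 ⟨_, [], hγ, (subst_nil _ _).2 rfl, by simp⟩, rfl⟩
    · refine ⟨γs, w1, ns ++ [u], h1, ?_, by simp [h3]⟩
      intro x hx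
      rcases List.mem_append.1 hx with hx | hx
      · exact h2 x hx
      · rw [List.mem_singleton.1 hx]; exact ⟨hr, he⟩

end SD
end Vale.Agent.P329
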