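import Vale.Agent.P329.BadRun
import Vale.Agent.P329.SmallA
import Vale.Agent.P329.Mark
import Vale.Agent.P329.InstL

/-! The small layer, part B: cuts in letters. -/

namespace Vale.Agent.P329

variable {α M : Type} [Monoid M]

namespace SD
variable {C : TC M} (D : SD α C) (φ : α → M)

def Off (p : M × C.W) (k : V M × M) (a : List α) : Prop :=
  ∃ st : St C, ∃ i ∈ D.S.I, (D.code i = k ∧ st.1 = k.2 ∧
      st.2.2 + ((D.lam + i : ℕ) : C.W) = C.κ k) ∧
    Cat (RunL D.NE (D.act φ) (p.1, 1, p.2) st) (fun a3 => a3.length = D.lam + i) a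

def Acc (d : C.W) (b : List α) : Prop := D.μ.SAcc D.S D.lam b ∧ (b.length : C.W) = d

def Tl (w : List α) : Prop := Cat (Star D.NE) (D.μ.Inc (D.lam + 2 * D.S.a)) w

theorem subst_two {Γ : Type} {Lt : Γ → List α → Prop} {γ γ' : Γ} {u u' : List α}
    (h : Lt γ u) (h' : Lt γ' u') : subst Lt [γ, γ'] (u ++ u') :=
  (subst_cons _ _ _ _).2 ⟨_, _, h,
    (subst_cons _ _ _ _).2 ⟨_, [], h', (subst_nil _ _).2 rfl, by simp⟩, rfl⟩

theorem sound (p : M × C.W) (k : V M × M) (d : C.W) (γ : M × C.W) (a b l : List α)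
    (ha : D.Off φ p k a) (hb : D.Acc d b) (hl : D.Lt φ γ l) :
    ∃ g γs, (γs.length = 1 ∨ γs.length = 2) ∧ subst (D.Lt φ) γs (a ++ b ++ l) ∧
      runG C γs p = stepG C γ (bel C k g d) := by
  obtain ⟨st, i, hi, ⟨hcode, hP, hs⟩, _, a3, ⟨ns, hn, rfl, hrun⟩, ha3, rfl⟩ := ha
  obtain ⟨hb, rfl⟩ := hb
  refine ⟨st.2.1 * val φ (a3 ++ b), ?_⟩
  have key : ((st.1 * (st.2.1 * val φ (a3 ++ b)), 1,
      C.v * (st.2.2 + (a3 ++ b).length + C.c (st.2.1 * val φ (a3 ++ b)))) : St C) =
      ((bel C k (st.2.1 * val φ (a3 ++ b)) b.length).1, 1,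
        (bel C k (st.2.1 * val φ (a3 ++ b)) b.length).2) := by
    simp only [bel, ← hP, ← hs, List.length_append, ha3]
    refine Prod.ext rfl (Prod.ext rfl ?_)
    simp only
    push_cast
    ring
  rcases D.μ.small_sound D.S D.hs hi ha3 hb with h | h | ⟨u1, u2, e, h1, h2, h3, h4, h5⟩
  · obtain ⟨γ1, hγ1, hst⟩ := D.lt_intro φ hn (e := a3 ++ b) h
    refine ⟨[γ1, γ], Or.inr rfl, ?_, ?_⟩
    · have := subst_two hγ1 hl
      simpa [List.append_assoc] using this
    · have h1 := hst p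
      rw [hrun, D.act_ev φ h.2, key] at h1
      simp only [Prod.mk.injEq, true_and] at h1
      have : stepG C γ1 p = bel C k (st.2.1 * val φ (a3 ++ b)) b.length :=
        Prod.ext h1.1.symm h1.2.symm
      simp only [runG, List.foldl_cons, List.foldl_nil, this]
  · obtain ⟨ns', e, hn', he, rfl, hst'⟩ := D.lt_elim φ hl
    have hn2 : ∀ u ∈ ns ++ (a3 ++ b) :: ns', D.NE u := by
      intro u hu
      rcases List.mem_append.1 hu with hu | hu
      · exact hn u hu
      · rcases List.mem_cons.1 hu with rfl | hu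
        · exact ⟨h.1, h.2.1⟩
        · exact hn' u hu
    obtain ⟨γ1, hγ1, hst⟩ := D.lt_intro φ hn2 he
    refine ⟨[γ1], Or.inl rfl, ?_, ?_⟩
    · exact (subst_cons _ _ _ _).2 ⟨_, [], hγ1, (subst_nil _ _).2 rfl, by simp⟩
    · have h1 := hst p
      rw [run_append, hrun, run_cons, D.act_coin φ h.2.1 h.2.2 st (by rw [hcode, hs]), key,
        hst'] at h1
      simp only [Prod.mk.injEq, true_and] at h1
      simp only [runG, List.foldl_cons, List.foldl_nil]
      exact Prod.ext h1.1.symm h1.2.symm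
  · have hn2 : ∀ u ∈ ns ++ [u1], D.NE u := by
      intro u hu
      rcases List.mem_append.1 hu with hu | hu
      · exact hn u hu
      · rw [List.mem_singleton.1 hu]; exact ⟨h1, h2⟩
    obtain ⟨γ1, hγ1, hst⟩ := D.lt_intro φ hn2 (e := u2) ⟨h4, h5⟩
    refine ⟨[γ1, γ], Or.inr rfl, ?_, ?_⟩
    · have := subst_two hγ1 hl
      simp only [List.flatten_append, List.flatten_cons, List.flatten_nil, List.append_nil,
        List.append_assoc] at this ⊢
      rw [← List.append_assoc a3 b, e, List.append_assoc]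
      exact this
    · have h1 := hst p
      rw [run_append, hrun, run_cons, run_nil, D.act_pend φ h2 h3, D.act_ev φ h5] at h1
      have k2 : ((st.1 * (st.2.1 * val φ u1 * val φ u2), 1,
          C.v * (st.2.2 + u1.length + u2.length + C.c (st.2.1 * val φ u1 * val φ u2))) : St C) =
          ((bel C k (st.2.1 * val φ (a3 ++ b)) b.length).1, 1,
            (bel C k (st.2.1 * val φ (a3 ++ b)) b.length).2) := by
        rw [← key, e, val_append, List.length_append, mul_assoc st.2.1]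
        push_cast
        rw [add_assoc st.2.2]
      simp only at h1
      rw [k2] at h1
      simp only [Prod.mk.injEq, true_and] at h1
      have : stepG C γ1 p = bel C k (st.2.1 * val φ (a3 ++ b)) b.length :=
        Prod.ext h1.1.symm h1.2.symm
      simp only [runG, List.foldl_cons, List.foldl_nil, this]

theorem complete (p : M × C.W) (x : V M) (γ : M × C.W) (l : List α) (hl : D.Lt φ γ l) :
    ∃ P g d a b, l = a ++ b ∧ D.Off φ p (x, P) a ∧ D.Acc d b ∧
      stepG C γ p = bel C (x, P) g d := by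
  obtain ⟨ns, e, hn, he, rfl, hst⟩ := D.lt_elim φ hl
  set st := run (D.act φ) ns (p.1, 1, p.2) with hrun
  obtain ⟨g, hg, hcode⟩ := D.hcode (x, st.1) (C.κ (x, st.1) - st.2.2 - D.lam)
  obtain ⟨i, hi, hig, hacc⟩ := D.μ.small_complete D.S D.hs he.1 he.2 hg
  obtain ⟨hc1, hc2⟩ := hcode i hig
  have hlen : D.lam + i ≤ e.length := by
    have h1 := he.1.1
    have h2 := D.S.I_lt i hi
    omega
  have hs : st.2.2 + ((D.lam + i : ℕ) : C.W) = C.κ (x, st.1) := by
    push_cast
    rw [hc2]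
    ring
  refine ⟨st.1, st.2.1 * val φ e, ((e.drop (D.lam + i)).length : C.W),
    ns.flatten ++ e.take (D.lam + i), e.drop (D.lam + i), by simp, ?_, ⟨hacc, rfl⟩, ?_⟩
  · exact ⟨st, i, hi, ⟨hc1, rfl, hs⟩, _, _, ⟨ns, hn, rfl, rfl⟩, by simp [hlen], rfl⟩
  · have h1 := hst p
    rw [← hrun, D.act_ev φ he.2] at h1
    simp only [Prod.mk.injEq, true_and] at h1
    refine Prod.ext h1.1.symm ?_
    rw [← h1.2]
    simp only [bel, ← hs, List.length_drop, Nat.cast_sub hlen]
    ring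

theorem dec (w : List α) : ∃ γs w1 w2, subst (D.Lt φ) γs w1 ∧ D.Tl w2 ∧ w = w1 ++ w2 := by
  obtain ⟨us, r, hu, hr, rfl⟩ := D.μ.rd_dec (D.lam + 2 * D.S.a) w
  obtain ⟨γs, w1, ns, h1, h2, h3⟩ := D.group φ us hu
  exact ⟨γs, w1, ns.flatten ++ r, h1, ⟨_, _, ⟨ns, h2, rfl⟩, hr, rfl⟩, by simp [h3]⟩

theorem val_pair (u : List α) :
    val (fun a => ((φ a, Multiplicative.ofAdd (1 : C.W)) : M × Multiplicative C.W)) u =
      (val φ u, Multiplicative.ofAdd (u.length : C.W)) := by
  induction u with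
  | nil => simp; rfl
  | cons a u ih =>
    rw [val_cons, ih, val_cons, List.length_cons, Prod.mk_mul_mk, ← ofAdd_add]
    push_cast
    rw [add_comm]

variable [Finite α] [Finite M]

theorem f1_len {p : List α → Prop} (ht : Thin p) (hp : F1 p) (c : M → C.W → Prop) :
    F1 (fun u => p u ∧ c (val φ u) (u.length : C.W)) := by
  have := F1.thin_val'
    (fun a => ((φ a, Multiplicative.ofAdd (1 : C.W)) : M × Multiplicative C.W)) ht hp
    (fun m => c m.1 (Multiplicative.toAdd m.2))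
  refine this.congr fun w => ?_
  rw [val_pair]
  rfl

theorem f1_lt (hNE : ∀ x y, F1 (RunL D.NE (D.act φ) x y)) (γ : M × C.W) : F1 (D.Lt φ γ) := by
  refine F1.ex fun st => (hNE _ _).cat ?_
  have ht : Thin D.EV := (D.μ.thin_rd _).mono fun w h => h.1
  have hp : F1 D.EV := (D.μ.f1_rd _).and (D.μ.f1_good _ _ _ _)
  refine (f1_len φ ht hp (fun g n => ((st.1 * (st.2.1 * g), 1,
      C.v * (st.2.2 + n + C.c (st.2.1 * g))) : St C) = (γ.1, 1, γ.2))).congr fun w => ?_
  refine and_congr_right fun hw => ?_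
  rw [D.act_ev φ hw.2]

theorem f1_off (hNE : ∀ x y, F1 (RunL D.NE (D.act φ) x y)) (p : M × C.W) (k : V M × M) :
    F1 (D.Off φ p k) := by
  refine F1.ex fun st => F1.exSet ((Set.finite_lt_nat D.S.a).subset D.S.I_lt) fun i _ => ?_
  exact (F1.const _).and ((hNE _ _).cat (F1.short (D.lam + i) fun w h => h.le))

theorem f1_acc (d : C.W) : F1 (D.Acc d) :=
  f1_len (fun _ => (1 : M)) (D.μ.thin_sacc D.S D.lam) (D.μ.f1_sacc D.S D.lam) (fun _ n => n = d)

theorem f1_tl (hNE : ∀ x y, F1 (RunL D.NE (D.act φ) x y)) (m : M) :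
    F1 (fun w => D.Tl w ∧ val φ w = m) := by
  have : F1 (fun w => ∃ st : St C, Cat (RunL D.NE (D.act φ) (1, 1, 0) st)
      (fun r => D.μ.Inc (D.lam + 2 * D.S.a) r ∧ st.1 * st.2.1 * val φ r = m) w) :=
    F1.ex fun st => (hNE _ _).cat (F1.thin_val' φ (D.μ.thin_inc _) (D.μ.f1_inc _)
      (fun g => st.1 * st.2.1 * g = m))
  refine this.congr fun w => ⟨?_, ?_⟩
  · rintro ⟨_, _, r, ⟨ns, hn, rfl, rfl⟩, ⟨hr, hm⟩, rfl⟩
    refine ⟨⟨_, _, ⟨ns, hn, rfl⟩, hr, rfl⟩, ?_⟩
    rw [D.run_val] at hm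
    simpa using hm
  · rintro ⟨⟨_, r, ⟨ns, hn, rfl⟩, hr, rfl⟩, hm⟩
    refine ⟨_, _, _, ⟨ns, hn, rfl, rfl⟩, ⟨hr, ?_⟩, rfl⟩
    rw [D.run_val]
    simpa using hm

omit [Finite α] [Finite M] in
theorem act_congr {u u' : List α} (hu : D.NE u) (hu' : D.NE u')
    (h1 : val φ (u.take D.lam) = val φ (u'.take D.lam)) (h2 : u.drop D.lam = u'.drop D.lam) :
    D.act φ u = D.act φ u' := by
  have e1 : val φ u = val φ u' := by
    rw [← List.take_append_drop D.lam u, ← List.take_append_drop D.lam u', val_append,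
      val_append, h1, h2]
  have e2 : u.length = u'.length := by
    have := congrArg List.length h2
    have a1 := hu.1.1
    have a2 := hu'.1.1
    simp only [List.length_drop] at this
    omega
  have e3 : D.μ.Coin D.S D.lam u = D.μ.Coin D.S D.lam u' := by
    funext i
    simp only [Marker.Coin, add_assoc, ← List.drop_drop, h2]
  have e4 : D.μ.Ev D.S D.lam u = D.μ.Ev D.S D.lam u' := propext ⟨fun h => absurd h hu.2,
    fun h => absurd h hu'.2⟩
  simp only [act, e1, e2, e3, e4]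

end SD

theorem exists_letters {α M : Type} [Finite α] [Monoid M] [Finite M] (φ : α → M) (C : TC M) :
    Nonempty (Letters φ C) := by
  obtain ⟨N, code, hN, hcode⟩ := C.code (V M × M)
  obtain ⟨S⟩ := exists_inst N hN
  obtain ⟨lam, hlam⟩ := badrun M (St C) (4 * S.a)
  obtain ⟨μ⟩ := exists_marker α (lam + 5 * S.a)
  let D : SD α C := ⟨N, code, hcode, S, lam, _, μ, le_rfl⟩
  have hNE : ∀ x y, F1 (RunL D.NE (D.act φ) x y) := by
    refine hlam α _ μ φ D.NE (D.act φ) (lam + 2 * S.a) _ (by omega) (fun u h => h.1)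
      (fun u h => μ.bad_len h.1 h.2) (fun u h => ?_) (fun u u' h h' => D.act_congr φ h h')
    obtain ⟨f, h1, h2, h3⟩ := μ.bad_first h.2
    exact ⟨f, le_trans (Nat.le_add_right _ _) h1, h2, h3⟩
  exact ⟨{
    Lt := D.Lt φ
    Off := D.Off φ
    Acc := D.Acc
    Tl := D.Tl
    code := D.lt_code φ
    hLt := fun γ => (D.f1_lt φ hNE γ).toH
    hOff := fun p k => (D.f1_off φ hNE p k).toH
    hAcc := fun d => (D.f1_acc d).toH
    hTl := fun m => (D.f1_tl φ hNE m).toH
    valLt := fun _ _ h => D.lt_val φ h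
    dec := D.dec φ
    sound := D.sound φ
    complete := D.complete φ }⟩

end Vale.Agent.P329
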