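import Mathlib

namespace Vale.Agent.P329

/-- Generalized regular expressions over the alphabet `α`. -/
inductive GRE (α : Type) : Type
  | zero : GRE α
  | one : GRE α
  | letter (a : α) : GRE α
  | union (P Q : GRE α) : GRE α
  | concat (P Q : GRE α) : GRE α
  | compl (P : GRE α) : GRE α
  | star (P : GRE α) : GRE α

/-- The language denoted by an expression; the complement is taken in the set of all words. -/
def GRE.lang {α : Type} : GRE α → Language α
  | .zero => 0
  | .one => 1
  | .letter a => {[a]}
  | .union P Q => P.lang + Q.lang
  | .concat P Q => P.lang * Q.lang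
  | .compl P => (P.lang)ᶜ
  | .star P => KStar.kstar P.lang

/-- The star height of an expression. -/
def GRE.sh {α : Type} : GRE α → ℕ
  | .zero => 0
  | .one => 0
  | .letter _ => 0
  | .union P Q => max P.sh Q.sh
  | .concat P Q => max P.sh Q.sh
  | .compl P => P.sh
  | .star P => P.sh + 1

end Vale.Agent.P329
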