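import Vale.Agent.P329.Clos

/-! Periodic residue lemma.  Plan for `F1.thin_val`: let `B, q` witness thinness.  A word `w` with
`p w` is either shorter than `2B+2q` (finitely many words), or `w = x ++ (replicate k v).flatten ++ y`
with `x = w.take B`, `v = (w.drop B).take q`, `y.length < B + 2q` (induction on `k`, or `List.ext_getElem?`).
For fixed `x v y` (finitely many triples) the set of `x v^k y` with value `m` has height one:
in the finite monoid there are `n0`, `ω > 0` with `g^(n0+ω) = g^n0` (`g = val ψ v`), so it is a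
finite union of single words and of languages `x v^i (v^ω)* y` with `n0 ≤ i < n0+ω`.
Finally intersect with `p` (`F1.and`; the star is `F1.starfin` of the single word `v^ω`). -/

namespace Vale.Agent.P329

variable {α M : Type}

theorem Thin.mono {p q : List α → Prop} (hq : Thin q) (h : ∀ w, p w → q w) : Thin p := by
  obtain ⟨B, n, h1, h2⟩ := hq
  exact ⟨B, n, h1, fun w hw => h2 w (h w hw)⟩

theorem thin_split {q : ℕ} (hq : 0 < q) (B : ℕ) (w : List α)
    (h : ∀ j, j + q + B ≤ w.length → w[j]? = w[j + q]?) :
    ∃ k y, y.length ≤ B + 2 * q ∧ w = (List.replicate k (w.take q)).flatten ++ y := by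
  induction hn : w.length using Nat.strong_induction_on generalizing w with
  | _ n ih =>
    by_cases hl : w.length ≤ B + 2 * q
    · exact ⟨0, w, hl, by simp⟩
    · obtain ⟨k, y, hy, e⟩ := ih (w.drop q).length (by rw [List.length_drop]; omega) (w.drop q)
        (fun j hj => by
          have := h (q + j) (by rw [List.length_drop] at hj; omega)
          rw [List.getElem?_drop, List.getElem?_drop, this, Nat.add_assoc]) rfl
      have e2 : (w.drop q).take q = w.take q := by
        apply List.ext_getElem?
        intro i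
        rw [List.getElem?_take, List.getElem?_take]
        split_ifs with hi
        · rw [List.getElem?_drop, h i (by omega), Nat.add_comm]
        · rfl
      refine ⟨k + 1, y, hy, ?_⟩
      rw [List.replicate_succ, List.flatten_cons, List.append_assoc, ← e2, ← e, e2,
        List.take_append_drop]

theorem val_rep_thin [Monoid M] (ψ : α → M) (v : List α) (k : ℕ) :
    val ψ (List.replicate k v).flatten = val ψ v ^ k := by
  induction k with
  | zero => simp
  | succ k ih => rw [List.replicate_succ, List.flatten_cons, val_append, ih, pow_succ']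

theorem rep_add_thin (v : List α) (k l : ℕ) : (List.replicate (k + l) v).flatten =
    (List.replicate k v).flatten ++ (List.replicate l v).flatten := by
  rw [List.replicate_add, List.flatten_append]

theorem rep_mul_thin (v : List α) (k l : ℕ) :
    (List.replicate k (List.replicate l v).flatten).flatten = (List.replicate (l * k) v).flatten := by
  induction k with
  | zero => simp
  | succ k ih =>
    rw [List.replicate_succ, List.flatten_cons, ih, Nat.mul_succ, Nat.add_comm, rep_add_thin]

theorem f1_pow_thin [Monoid M] [Finite M] (ψ : α → M) (x v y : List α) (m : M) :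
    F1 (fun w => ∃ k, w = x ++ (List.replicate k v).flatten ++ y ∧ val ψ w = m) := by
  obtain ⟨n0, ω, hω, hg⟩ : ∃ n0 ω, 0 < ω ∧ val ψ v ^ (n0 + ω) = val ψ v ^ n0 := by
    obtain ⟨i, j, hij, e⟩ := Finite.exists_ne_map_eq_of_infinite (fun n : ℕ => val ψ v ^ n)
    rcases lt_or_gt_of_ne hij with h | h
    · exact ⟨i, j - i, by omega, by rw [Nat.add_sub_cancel' h.le]; exact e.symm⟩
    · exact ⟨j, i - j, by omega, by rw [Nat.add_sub_cancel' h.le]; exact e⟩
  have hg' : ∀ i t, n0 ≤ i → val ψ v ^ (i + ω * t) = val ψ v ^ i := fun i t hi => by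
    induction t with
    | zero => simp
    | succ t ih =>
      rw [show i + ω * (t + 1) = (n0 + ω) + (i - n0 + ω * t) by rw [Nat.mul_succ]; omega, pow_add, hg,
        ← pow_add, show n0 + (i - n0 + ω * t) = i + ω * t by omega, ih]
  have hw : ∀ z : List α, F1 (fun w => w = z) := fun z => F1.fin (by simp)
  have h1 : F1 (fun w => ∃ i ∈ Set.Iio n0,
      w = x ++ (List.replicate i v).flatten ++ y ∧ val ψ x * val ψ v ^ i * val ψ y = m) :=
    F1.exSet (Set.finite_Iio n0) fun i _ => (hw _).and (F1.const _)
  have h2 : F1 (fun w => ∃ i ∈ Set.Ico n0 (n0 + ω),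
      Cat (Cat (fun w => w = x ++ (List.replicate i v).flatten)
        (Star fun w => w = (List.replicate ω v).flatten)) (fun w => w = y) w ∧
        val ψ x * val ψ v ^ i * val ψ y = m) :=
    F1.exSet (Set.finite_Ico _ _) fun i _ =>
      (((hw _).cat (F1.starfin (by simp))).cat (hw _)).and (F1.const _)
  refine (h1.or h2).congr fun w => ⟨?_, ?_⟩
  · rintro (⟨i, -, rfl, h⟩ | ⟨i, hi, ⟨_, _, ⟨_, _, rfl, ⟨us, hus, rfl⟩, rfl⟩, rfl, rfl⟩, h⟩)
    · exact ⟨i, rfl, by rw [val_append, val_append, val_rep_thin, h]⟩
    · have e : us = List.replicate us.length (List.replicate ω v).flatten :=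
        List.eq_replicate_iff.2 ⟨rfl, hus⟩
      rw [e, rep_mul_thin, List.append_assoc x, ← rep_add_thin]
      exact ⟨_, rfl, by rw [val_append, val_append, val_rep_thin, hg' _ _ hi.1, h]⟩
  · rintro ⟨k, rfl, h⟩
    rw [val_append, val_append, val_rep_thin] at h
    by_cases hk : k < n0
    · exact Or.inl ⟨k, hk, rfl, h⟩
    · have e : k = (n0 + (k - n0) % ω) + ω * ((k - n0) / ω) := by
        have := Nat.mod_add_div (k - n0) ω
        omega
      refine Or.inr ⟨n0 + (k - n0) % ω, ⟨by omega, by have := Nat.mod_lt (k - n0) hω; omega⟩,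
        ⟨_, y, ⟨_, _, rfl, ⟨List.replicate ((k - n0) / ω) (List.replicate ω v).flatten,
          fun u hu => List.eq_of_mem_replicate hu, rfl⟩, rfl⟩, rfl, ?_⟩, ?_⟩
      · rw [rep_mul_thin, List.append_assoc x (List.replicate (n0 + (k - n0) % ω) v).flatten,
          ← rep_add_thin, ← e]
      · rw [← hg' _ ((k - n0) / ω) (by omega), ← e, h]

theorem F1.thin_val [Finite α] [Monoid M] [Finite M] (ψ : α → M) {p : List α → Prop}
    (ht : Thin p) (hp : F1 p) (m : M) : F1 (fun w => p w ∧ val ψ w = m) := by
  obtain ⟨B, q, hq, hper⟩ := ht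
  have h1 : F1 (fun w : List α => w.length ≤ B ∧ val ψ w = m) := F1.short B fun w h => h.1
  have hfin : {t : List α × List α × List α |
      t.1.length ≤ B ∧ t.2.1.length ≤ q ∧ t.2.2.length ≤ B + 2 * q}.Finite :=
    ((List.finite_length_le α B).prod ((List.finite_length_le α q).prod
      (List.finite_length_le α (B + 2 * q)))).subset fun t ht => ht
  have h2 := F1.exSet hfin fun t _ => f1_pow_thin ψ t.1 t.2.1 t.2.2 m
  refine (hp.and (h1.or h2)).congr fun w => ⟨?_, fun h => ⟨h.1, ?_⟩⟩
  · rintro ⟨h3, h4 | ⟨t, -, k, -, h4⟩⟩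
    · exact ⟨h3, h4.2⟩
    · exact ⟨h3, h4⟩
  · by_cases hl : w.length ≤ B
    · exact Or.inl ⟨hl, h.2⟩
    · obtain ⟨k, y, hy, e⟩ := thin_split hq B (w.drop B) fun j hj => by
        have := hper w h.1 (B + j) (by omega) (by rw [List.length_drop] at hj; omega)
        rw [List.getElem?_drop, List.getElem?_drop, this, Nat.add_assoc]
      refine Or.inr ⟨(w.take B, (w.drop B).take q, y), ⟨by simp, by simp, hy⟩, k, ?_, h.2⟩
      simp only
      rw [List.append_assoc, ← e, List.take_append_drop]

/-- version with an arbitrary condition on the value -/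
theorem F1.thin_val' [Finite α] [Monoid M] [Finite M] (ψ : α → M) {p : List α → Prop}
    (ht : Thin p) (hp : F1 p) (c : M → Prop) : F1 (fun w => p w ∧ c (val ψ w)) := by
  exact (F1.ex fun m : M => (F1.const (c m)).and (F1.thin_val ψ ht hp m)).congr fun w =>
    ⟨fun ⟨m, h1, h2, h3⟩ => ⟨h2, h3 ▸ h1⟩, fun h => ⟨_, h.2, h.1, rfl⟩⟩

end Vale.Agent.P329
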