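import Vale.Agent.P329.Geo
import Vale.Agent.P329.Chain
import Vale.Agent.P329.Subst

/-! The big layer, part A: action of big rounds, soundness and completeness of the cuts. -/

namespace Vale.Agent.P329

variable {α M : Type} [Monoid M] [Finite M]

section
variable (C : TC M)

omit [Finite M] in
theorem runG_append (γs δs : List (M × C.W)) (p : M × C.W) :
    runG C (γs ++ δs) p = runG C δs (runG C γs p) := by
  simp [runG, List.foldl_append]

omit [Finite M] in
theorem runG_cons (γ : M × C.W) (δs : List (M × C.W)) (p : M × C.W) :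
    runG C (γ :: δs) p = runG C δs (stepG C γ p) := rfl

omit [Finite M] in
theorem runG_fst (γs : List (M × C.W)) (p : M × C.W) :
    (runG C γs p).1 = p.1 * val Prod.fst γs := by
  induction γs generalizing p with
  | nil => simp [runG]
  | cons γ γs ih => rw [runG_cons, ih, val_cons, stepG, mul_assoc]

omit [Finite M] in
theorem runG_snd (γs : List (M × C.W)) (p p' : M × C.W) :
    (runG C γs p').2 = (runG C γs p).2 + C.v ^ γs.length * (p'.2 - p.2) := by
  induction γs generalizing p p' with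
  | nil => simp [runG]
  | cons γ γs ih =>
    rw [runG_cons, runG_cons, ih (stepG C γ p) (stepG C γ p'), List.length_cons, pow_succ]
    simp only [stepG]
    ring

abbrev M1 : Type := (Function.End (M × C.W))ᵐᵒᵖ

instance : Finite (M1 C) :=
  haveI : Finite (Function.End (M × C.W)) := inferInstanceAs (Finite (M × C.W → M × C.W))
  Finite.of_equiv _ MulOpposite.opEquiv

def psi (γ : M × C.W) : M1 C := MulOpposite.op (stepG C γ)

omit [Finite M] in
theorem val_psi (γs : List (M × C.W)) (p : M × C.W) :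
    (val (psi C) γs).unop p = runG C γs p := by
  induction γs generalizing p with
  | nil => rfl
  | cons γ γs ih =>
    rw [val_cons, MulOpposite.unop_mul, runG_cons, ← ih]
    rfl

abbrev XX : Type := V M × (M × C.W)

noncomputable def out (x : V M) (q : M × C.W) : V M :=
  (fun m => C.lab q.2 (Sum.inr m)) + push (· * q.1) (x - fun m => C.lab q.2 (Sum.inl m))

theorem out_of_lab {x y : V M} {q : M × C.W} (h : C.lab q.2 = Sum.elim x y) : out C x q = y := by
  simp only [out, h, Sum.elim_inl, Sum.elim_inr, sub_self, push_zero, add_zero]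

theorem out_sub (x x' : V M) (q : M × C.W) :
    out C x q - out C x' q = push (· * q.1) (x - x') := by
  simp only [out, push_sub]
  abel

variable {s : ℕ} (μ : Marker (M × C.W) s) (lam : ℕ)

open Classical in
noncomputable def actB (γs : List (M × C.W)) (st : XX C) : XX C :=
  if μ.Pend lam (C.n + 2) γs then (st.1, runG C γs st.2) else (out C st.1 (runG C γs st.2), (1, 0))

theorem run_actB [DecidableEq M] (us : List (List (M × C.W))) (x x' : V M) (p : M × C.W) (a : M)
    (h : x - x' = Pi.single a 1) :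
    ∃ a', (run (actB C μ lam) us (x, p)).2 = (run (actB C μ lam) us (x', p)).2 ∧
      (run (actB C μ lam) us (x, p)).1 - (run (actB C μ lam) us (x', p)).1 = Pi.single a' 1 ∧
      a' * (run (actB C μ lam) us (x, p)).2.1 = a * p.1 * val Prod.fst us.flatten := by
  induction us generalizing x x' p a with
  | nil => exact ⟨a, rfl, h, by simp⟩
  | cons u us ih =>
    rw [run_cons, run_cons, List.flatten_cons, val_append]
    by_cases hp : μ.Pend lam (C.n + 2) u
    · simp only [actB, hp, if_true]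
      obtain ⟨a', h1, h2, h3⟩ := ih x x' (runG C u p) a h
      exact ⟨a', h1, h2, by rw [h3, runG_fst]; simp [mul_assoc]⟩
    · simp only [actB, hp, if_false]
      obtain ⟨a', h1, h2, h3⟩ := ih (out C x (runG C u p)) (out C x' (runG C u p)) (1, 0)
        (a * (runG C u p).1) (by rw [out_sub, h, push_single])
      exact ⟨a', h1, h2, by rw [h3, runG_fst]; simp [mul_assoc]⟩

end

variable {φ : α → M} {C : TC M} (Ls : Letters φ C) {s : ℕ} (μ : Marker (M × C.W) s) (lam : ℕ)

def TOff (st : XX C) (a : List α) : Prop :=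
  ∃ γs ∈ {γs : List (M × C.W) | lam ≤ γs.length ∧ γs.length < lam + C.n}, ∃ P : M,
    Cat (subst Ls.Lt γs) (Ls.Off (runG C γs st.2) (st.1, P)) a

def TAcc (st : XX C) (b : List α) : Prop :=
  ∃ (d : C.W) (γ : M × C.W) (m : M1 C),
    (st.2 = (1, 0) ∧ ∀ k g, out C k.1 (m.unop (stepG C γ (bel C k g d))) = st.1) ∧
    Cat (Ls.Acc d) (Cat (Ls.Lt γ)
      (Sub Ls.Lt (fun t => μ.BAcc lam (C.n + 2) t ∧ val (psi C) t = m))) b

theorem top_sound (hs : lam + 3 * (C.n + 2) ≤ s) (x y : XX C) (a b : List α)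
    (ha : TOff Ls lam x a) (hb : TAcc Ls μ lam y b) :
    Sub Ls.Lt (RunL (μ.Rd (lam + (C.n + 2))) (actB C μ lam) x y) (a ++ b) := by
  obtain ⟨γs, ⟨h1, h2⟩, P, w1, a', hw1, ha', rfl⟩ := ha
  obtain ⟨d, γ, m, ⟨hy, hout⟩, b1, _, hb1, ⟨l, w2, hl, ⟨t, ⟨ht, rfl⟩, hw2⟩, rfl⟩, rfl⟩ := hb
  obtain ⟨g, δs, hδ, hsub, hrun⟩ := Ls.sound _ _ _ _ _ _ _ ha' hb1 hl
  have hy' : y = (out C x.1 (runG C (γs ++ δs ++ t) x.2), (1, 0)) := by
    refine Prod.ext ?_ hy
    rw [← hout (x.1, P) g, val_psi, runG_append, runG_append, hrun]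
  refine ⟨γs ++ δs ++ t, ?_, ?_⟩
  · rcases μ.big_sound hs (a := γs ++ δs) (by simp; omega) (by simp; omega) ht with
      ⟨h3, h4⟩ | ⟨u1, u2, e, h3, h4, h5, h6⟩
    · refine ⟨[γs ++ δs ++ t], by simpa using h3, by simp, ?_⟩
      simp only [run_cons, run_nil, actB, h4, if_false, hy']
    · refine ⟨[u1, u2], by simp [h3, h5], by simpa using e, ?_⟩
      simp only [run_cons, run_nil, actB, h4, h6, if_false, if_true, hy', e, runG_append]
  · refine (subst_append _ _ _ _).2 ⟨w1 ++ (a' ++ b1 ++ l), w2,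
      (subst_append _ _ _ _).2 ⟨_, _, hw1, hsub, rfl⟩, hw2, by simp⟩

theorem top_complete (hs : lam + 3 * (C.n + 2) ≤ s) (x : XX C) (u : List α)
    (γs : List (M × C.W)) (hu : subst Ls.Lt γs u) (hr : μ.Rd (lam + (C.n + 2)) γs)
    (hg : μ.BGood lam (C.n + 2) γs) :
    ∃ a b, u = a ++ b ∧ TOff Ls lam x a ∧ TAcc Ls μ lam (actB C μ lam γs x) b := by
  have hlen := hr.1
  have hR := μ.R_pos
  obtain ⟨r, hr1, hr2, hsw⟩ := C.sweep (runG C γs x.2).2
    (Sum.elim x.1 (out C x.1 (runG C γs x.2)))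
    (fun k => Sum.elim k.1 (out C x.1 (runG C γs x.2))) (γs.length + 1 - (lam + C.n))
  have hacc := μ.big_complete hs hr hg (θ := γs.length - r + 2) (by omega) (by omega)
  obtain ⟨A, γ0, γ1, t, rfl, hA⟩ : ∃ A γ0 γ1 t, γs = A ++ γ0 :: γ1 :: t ∧
      A.length = γs.length - r := by
    have h2 : 2 ≤ (γs.drop (γs.length - r)).length := by simp; omega
    match h : γs.drop (γs.length - r), h2 with
    | γ0 :: γ1 :: t, _ =>
      exact ⟨γs.take (γs.length - r), γ0, γ1, t, by rw [← h, List.take_append_drop], by simp⟩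
  have ht : (A ++ γ0 :: γ1 :: t).drop ((A ++ γ0 :: γ1 :: t).length - r + 2) = t := by
    rw [← hA, List.drop_append]
    simp
  rw [ht] at hacc
  have hrt : r = t.length + 2 := by simp at hA hlen hr2 hr1; omega
  obtain ⟨w1, _, hw1, h', rfl⟩ := (subst_append _ _ _ _).1 hu
  obtain ⟨l0, _, hl0, h'', rfl⟩ := (subst_cons _ _ _ _).1 h'
  obtain ⟨l1, w2, hl1, hw2, rfl⟩ := (subst_cons _ _ _ _).1 h''
  obtain ⟨P, g, d, a, b, rfl, hoff, hac, hstep⟩ := Ls.complete (runG C A x.2) x.1 γ0 l0 hl0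
  refine ⟨w1 ++ a, b ++ (l1 ++ w2), by simp, ?_, ?_⟩
  · exact ⟨A, ⟨by omega, by omega⟩, P, _, _, hw1, hoff, rfl⟩
  · have hnp := μ.bgood_not_pend hg
    refine ⟨d, γ1, val (psi C) t, ⟨by simp only [actB, hnp, if_false], fun k g' => ?_⟩,
      _, _, hac, ⟨_, _, hl1, ⟨t, ⟨hacc, rfl⟩, hw2⟩, rfl⟩, rfl⟩
    simp only [actB, hnp, if_false]
    have hfin : runG C (A ++ γ0 :: γ1 :: t) x.2 = runG C (γ1 :: t) (bel C (x.1, P) g d) := by
      rw [runG_append, runG_cons, hstep]
    rw [val_psi, ← runG_cons]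
    have hs2 : (runG C (γ1 :: t) (bel C k g' d)).2 = (runG C (A ++ γ0 :: γ1 :: t) x.2).2 +
        C.v ^ r * (C.κ k - C.κ (x.1, P) + C.c g' - C.c g) := by
      rw [hfin, runG_snd C (γ1 :: t) (bel C (x.1, P) g d), hrt]
      simp only [bel, List.length_cons, pow_succ]
      ring
    by_cases hk : k = (x.1, P)
    · by_cases hg' : g' = g
      · rw [hk, hg', hfin]
      · apply out_of_lab
        rw [hs2, (hsw (x.1, P) g k g').1 hk hg', hk]
    · apply out_of_lab
      rw [hs2, (hsw (x.1, P) g k g').2 hk]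

end Vale.Agent.P329
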