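import Vale.Agent.P329.Small
import Vale.Agent.P329.TopA

/-! The big layer, part B: the top level star and the final decomposition. -/

namespace Vale.Agent.P329

variable {α M : Type} [Monoid M] [Finite M]
variable {φ : α → M} {C : TC M} (Ls : Letters φ C) {s : ℕ} (μ : Marker (M × C.W) s) (lam : ℕ)

theorem h_toff (x : XX C) : H 2 (TOff Ls lam x) := by
  refine H.exSet ((List.finite_length_lt (M × C.W) (lam + C.n)).subset fun _ h => h.2)
    fun γs _ => H.ex fun P => ?_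
  exact ((H.subst Ls.hLt γs).cat (Ls.hOff _ _)).mono (by omega)

theorem h_tacc (x : XX C) : H 2 (TAcc Ls μ lam x) := by
  refine H.ex fun d => H.ex fun γ => H.ex fun m => (H.const _ _).and ?_
  refine ((Ls.hAcc d).mono (by omega)).cat (((Ls.hLt γ).mono (by omega)).cat ?_)
  exact F1.sub Ls.code Ls.hLt (F1.thin_val _ (μ.thin_bacc _ _) (μ.f1_bacc _ _) m)

theorem h_run (hs : lam + 3 * (C.n + 2) ≤ s)
    (hbad : ∀ x y, F1 (RunL (fun u => μ.Rd (lam + (C.n + 2)) u ∧ ¬ μ.BGood lam (C.n + 2) u)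
      (actB C μ lam) x y)) (x y : XX C) :
    H 3 (Sub Ls.Lt (RunL (μ.Rd (lam + (C.n + 2))) (actB C μ lam) x y)) := by
  have := H.chain (k := 2) (U := Sub Ls.Lt (μ.Rd (lam + (C.n + 2))))
    (Kill := Sub Ls.Lt (μ.BGood lam (C.n + 2))) (PCode.sub Ls.code (μ.rd_code _))
    (lift Ls.Lt (actB C μ lam)) (TOff Ls lam) (TAcc Ls μ lam) ?_ ?_
    (F1.sub Ls.code Ls.hLt (μ.f1_rd _)) (h_toff Ls lam) (h_tacc Ls μ lam) ?_ x y
  · exact this.congr fun w => runL_sub Ls.code _ _ _ _ _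
  · intro x y a b _ ha hb _
    exact (runL_sub Ls.code _ _ _ _ _).2 (top_sound Ls μ lam hs x y a b ha hb)
  · rintro x u ⟨γs, h1, h2⟩ ⟨δs, h3, h4⟩
    obtain rfl := subst_unique Ls.code h2 h4
    rw [lift_eq Ls.code _ h2]
    exact top_complete Ls μ lam hs x u γs h2 h1 h3
  · intro x y
    have e : (fun u => Sub Ls.Lt (μ.Rd (lam + (C.n + 2))) u ∧
        ¬ Sub Ls.Lt (μ.BGood lam (C.n + 2)) u) =
        Sub Ls.Lt (fun u => μ.Rd (lam + (C.n + 2)) u ∧ ¬ μ.BGood lam (C.n + 2) u) := by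
      funext u
      refine propext ⟨?_, ?_⟩
      · rintro ⟨⟨γs, h1, h2⟩, h3⟩
        exact ⟨γs, ⟨h1, fun h => h3 ⟨γs, h, h2⟩⟩, h2⟩
      · rintro ⟨γs, ⟨h1, h3⟩, h2⟩
        refine ⟨⟨γs, h1, h2⟩, ?_⟩
        rintro ⟨δs, h4, h5⟩
        exact h3 (subst_unique Ls.code h5 h2 ▸ h4)
    rw [e]
    exact (F1.sub Ls.code Ls.hLt (hbad x y)).congr fun w => (runL_sub Ls.code _ _ _ _ _).symm

theorem h_top (hs : lam + 3 * (C.n + 2) ≤ s)
    (hbad : ∀ x y, F1 (RunL (fun u => μ.Rd (lam + (C.n + 2)) u ∧ ¬ μ.BGood lam (C.n + 2) u)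
      (actB C μ lam) x y)) (m : M) :
    H 3 (Sub Ls.Lt (fun γs => Star (μ.Rd (lam + (C.n + 2))) γs ∧ val Prod.fst γs = m)) := by
  classical
  have : H 3 (fun w => ∃ (y : XX C) (a : M), a * y.2.1 = m ∧
      Sub Ls.Lt (RunL (μ.Rd (lam + (C.n + 2))) (actB C μ lam) (0, 1, 0) y) w ∧
      Sub Ls.Lt (RunL (μ.Rd (lam + (C.n + 2))) (actB C μ lam) (Pi.single 1 1, 1, 0)
        (y.1 + Pi.single a 1, y.2)) w) :=
    H.ex fun y => H.ex fun a => (H.const _ _).and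
      ((h_run Ls μ lam hs hbad _ _).and (h_run Ls μ lam hs hbad _ _))
  refine this.congr fun w => ⟨?_, ?_⟩
  · rintro ⟨y, a, hm, ⟨γs, ⟨us, h1, rfl, h2⟩, h3⟩, ⟨δs, ⟨vs, h4, rfl, h5⟩, h6⟩⟩
    obtain rfl := (μ.rd_code _).unique h1 h4 (subst_unique Ls.code h3 h6)
    refine ⟨_, ⟨⟨us, h1, rfl⟩, ?_⟩, h3⟩
    obtain ⟨a', -, e2, e3⟩ := run_actB C μ lam us (Pi.single 1 1) 0 (1, 0) 1 (sub_zero _)
    rw [h2, h5] at e2
    rw [h5] at e3
    have : a = a' := single_inj (by simpa using e2)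
    subst this
    simpa [hm] using e3.symm
  · rintro ⟨_, ⟨⟨us, h1, rfl⟩, hm⟩, h3⟩
    obtain ⟨a', e1, e2, e3⟩ := run_actB C μ lam us (Pi.single 1 1) 0 (1, 0) 1 (sub_zero _)
    refine ⟨run (actB C μ lam) us (0, 1, 0), a', ?_, ⟨_, ⟨us, h1, rfl, rfl⟩, h3⟩,
      ⟨_, ⟨us, h1, rfl, ?_⟩, h3⟩⟩
    · rw [← e1, e3]
      simpa using hm
    · refine Prod.ext ?_ e1
      simp only
      rw [← e2]
      abel

theorem actB_congr {u u' : List (M × C.W)} (hu : ¬ μ.BGood lam (C.n + 2) u)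
    (hu' : ¬ μ.BGood lam (C.n + 2) u')
    (h1 : val (psi C) (u.take lam) = val (psi C) (u'.take lam)) (h2 : u.drop lam = u'.drop lam) :
    actB C μ lam u = actB C μ lam u' := by
  have e1 : runG C u = runG C u' := by
    funext p
    rw [← List.take_append_drop lam u, ← List.take_append_drop lam u', runG_append,
      runG_append, ← val_psi C (u.take lam), h1, val_psi, h2]
  have e0 : ∀ f, μ.Mk (u.drop f) ↔ μ.Mk (u'.drop f) := by
    intro f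
    by_cases hf : f < lam
    · exact ⟨fun h => absurd (Or.inl ⟨f, hf, h⟩) hu, fun h => absurd (Or.inl ⟨f, hf, h⟩) hu'⟩
    · obtain ⟨e, rfl⟩ := Nat.exists_eq_add_of_le (not_lt.1 hf)
      rw [← List.drop_drop, ← List.drop_drop, h2]
  have e2 : μ.Pend lam (C.n + 2) u = μ.Pend lam (C.n + 2) u' := by
    simp only [Marker.Pend, e0]
  funext st
  unfold actB
  rw [e1, e2]

theorem monoid_three {α M : Type} [Finite α] [Monoid M] [Finite M] (φ : α → M) (m : M) :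
    H 3 (fun w => val φ w = m) := by
  obtain ⟨C⟩ := exists_clock (V M × M) M (M ⊕ M)
  obtain ⟨Ls⟩ := exists_letters φ C
  obtain ⟨lam, hlam⟩ := badrun (M1 C) (XX C) (3 * (C.n + 2))
  obtain ⟨μ⟩ := exists_marker (M × C.W) (lam + 3 * (C.n + 2))
  have hbad : ∀ x y, F1 (RunL (fun u => μ.Rd (lam + (C.n + 2)) u ∧ ¬ μ.BGood lam (C.n + 2) u)
      (actB C μ lam) x y) :=
    hlam _ _ μ (psi C) _ _ (lam + (C.n + 2)) _ (by omega) (fun u h => h.1)
      (fun u h => μ.bad_len h.1 h.2) (fun u h => μ.bad_first h.2)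
      (fun u u' h h' => actB_congr μ lam h.2 h'.2)
  have : H 3 (fun w => ∃ m1 m2 m3 : M, m1 * (m2 * m3) = m ∧
      Cat (Sub Ls.Lt (fun γs => Star (μ.Rd (lam + (C.n + 2))) γs ∧ val Prod.fst γs = m1))
        (Cat (Sub Ls.Lt (fun γs => μ.Inc (lam + (C.n + 2)) γs ∧ val Prod.fst γs = m2))
          (fun w => Ls.Tl w ∧ val φ w = m3)) w) :=
    H.ex fun m1 => H.ex fun m2 => H.ex fun m3 => (H.const _ _).and
      ((h_top Ls μ lam le_rfl hbad m1).cat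
        (((F1.sub Ls.code Ls.hLt (F1.thin_val _ (μ.thin_inc _) (μ.f1_inc _) m2)).mono
          (by omega)).cat ((Ls.hTl m3).mono (by omega))))
  refine this.congr fun w => ⟨?_, ?_⟩
  · rintro ⟨_, _, _, rfl, w1, _, ⟨γs, ⟨-, rfl⟩, h1⟩, ⟨w2, w3, ⟨δs, ⟨-, rfl⟩, h2⟩, ⟨-, rfl⟩, rfl⟩,
      rfl⟩
    rw [val_append, val_append, val_subst φ Prod.fst Ls.valLt h1,
      val_subst φ Prod.fst Ls.valLt h2]
  · rintro rfl
    obtain ⟨γs, w1, w3, h1, h3, rfl⟩ := Ls.dec w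
    obtain ⟨us, r, hu, hr, rfl⟩ := μ.rd_dec (lam + (C.n + 2)) γs
    obtain ⟨w1, w2, h4, h2, rfl⟩ := (subst_append _ _ _ _).1 h1
    refine ⟨_, _, _, ?_, w1, _, ⟨_, ⟨⟨us, hu, rfl⟩, rfl⟩, h4⟩,
      ⟨w2, w3, ⟨r, ⟨hr, rfl⟩, h2⟩, ⟨h3, rfl⟩, rfl⟩, by simp⟩
    rw [val_append, val_append, val_subst φ Prod.fst Ls.valLt h4,
      val_subst φ Prod.fst Ls.valLt h2, mul_assoc]

end Vale.Agent.P329
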